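import Mathlib

namespace Vale.Agent.Lib.P037

open Finset

lemma prod_ite_mem_one {s n : ℕ} (S : Finset (Fin s)) :
    (∏ k : Fin s, (if k ∈ S then 1 else n)) * n ^ S.card = n ^ s := by
  rw [prod_ite, prod_const_one, one_mul, prod_const, ← pow_add]
  congr 1
  have h := card_filter_add_card_filter_not (s := (univ : Finset (Fin s))) (fun k => k ∈ S)
  simp only [card_univ, Fintype.card_fin] at h
  have h2 : (univ.filter (fun k : Fin s => k ∈ S)) = S := by
    ext k; simp
  rw [h2] at h
  omega

lemma card_fix_one {s n : ℕ} (i : Fin s) (x : Fin n) :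
    (univ.filter (fun σ : Fin s → Fin n => σ i = x)).card * n = n ^ s := by
  classical
  have h : univ.filter (fun σ : Fin s → Fin n => σ i = x) =
      Fintype.piFinset (fun k => if k = i then {x} else univ) := by
    ext σ
    simp only [mem_filter, mem_univ, true_and, Fintype.mem_piFinset]
    constructor
    · intro h k
      by_cases hk : k = i
      · subst hk; simp [h]
      · simp [hk]
    · intro h
      simpa using h i
  rw [h, Fintype.card_piFinset]
  have h2 := prod_ite_mem_one (s := s) (n := n) ({i} : Finset (Fin s))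
  simp only [card_singleton, pow_one] at h2
  rw [← h2]
  congr 1
  apply prod_congr rfl
  intro k _
  by_cases hk : k = i
  · simp [hk]
  · simp [hk]

lemma card_fix_two {s n : ℕ} {i j : Fin s} (hij : i ≠ j) (x y : Fin n) :
    (univ.filter (fun σ : Fin s → Fin n => σ i = x ∧ σ j = y)).card * n ^ 2 = n ^ s := by
  classical
  have h : univ.filter (fun σ : Fin s → Fin n => σ i = x ∧ σ j = y) =
      Fintype.piFinset (fun k => if k = i then {x} else if k = j then {y} else univ) := by
    ext σ
    simp only [mem_filter, mem_univ, true_and, Fintype.mem_piFinset]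
    constructor
    · intro h k
      by_cases hk : k = i
      · subst hk; simp [h]
      · by_cases hk' : k = j
        · subst hk'; simp [hk, h]
        · simp [hk, hk']
    · intro h
      constructor
      · simpa using h i
      · simpa [hij.symm] using h j
  rw [h, Fintype.card_piFinset]
  have h2 := prod_ite_mem_one (s := s) (n := n) ({i, j} : Finset (Fin s))
  rw [card_pair hij] at h2
  rw [← h2]
  congr 1
  apply prod_congr rfl
  intro k _
  by_cases hk : k = i
  · simp [hk]
  · by_cases hk' : k = j
    · simp [hk']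
      simp [hij.symm]
    · simp [hk, hk']

/-- One coordinate of a uniform sample is uniform. -/
lemma sum_one {s n : ℕ} (i : Fin s) (G : Fin n → ℕ) :
    n * ∑ σ : Fin s → Fin n, G (σ i) = n ^ s * ∑ x, G x := by
  classical
  have h : ∑ σ : Fin s → Fin n, G (σ i) =
      ∑ x, (univ.filter (fun σ : Fin s → Fin n => σ i = x)).card * G x := by
    rw [← sum_fiberwise (s := univ) (g := fun σ : Fin s → Fin n => σ i)]
    apply sum_congr rfl
    intro x _
    rw [sum_congr rfl (g := fun _ => G x)]
    · simp
    · intro σ hσ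
      rw [(mem_filter.1 hσ).2]
  rw [h, mul_sum, mul_sum]
  apply sum_congr rfl
  intro x _
  rw [← card_fix_one i x]
  ring

/-- Two different coordinates of a uniform sample are uniform and independent. -/
lemma sum_two_eq {s n : ℕ} {i j : Fin s} (hij : i ≠ j) (G : Fin n → Fin n → ℕ) :
    n ^ 2 * ∑ σ : Fin s → Fin n, G (σ i) (σ j) = n ^ s * ∑ x, ∑ y, G x y := by
  classical
  have h : ∑ σ : Fin s → Fin n, G (σ i) (σ j) =
      ∑ p : Fin n × Fin n, (univ.filter (fun σ : Fin s → Fin n => σ i = p.1 ∧ σ j = p.2)).card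
        * G p.1 p.2 := by
    rw [← sum_fiberwise (s := univ) (g := fun σ : Fin s → Fin n => (σ i, σ j))]
    apply sum_congr rfl
    intro p _
    rw [sum_congr rfl (g := fun _ => G p.1 p.2)]
    · simp only [sum_const, smul_eq_mul]
      congr 2
      ext σ
      simp [Prod.ext_iff]
    · intro σ hσ
      have := (mem_filter.1 hσ).2
      rw [← this]
  rw [h, mul_sum, ← univ_product_univ, sum_product, mul_sum]
  apply sum_congr rfl
  intro x _
  rw [mul_sum]
  apply sum_congr rfl
  intro y _
  rw [← card_fix_two hij x y]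
  ring

/-- Version of `sum_two_eq` allowing the same coordinate, for functions vanishing on the diagonal. -/
lemma sum_two_le {s n : ℕ} (i j : Fin s) (G : Fin n → Fin n → ℕ) (hG : ∀ x, G x x = 0) :
    n ^ 2 * ∑ σ : Fin s → Fin n, G (σ i) (σ j) ≤ n ^ s * ∑ x, ∑ y, G x y := by
  by_cases hij : i = j
  · subst hij
    simp [hG]
  · exact (sum_two_eq hij G).le

lemma pow_succ_add_mul_le (n s : ℕ) : n ^ (s + 1) + (s + 1) * n ^ s ≤ (n + 1) ^ (s + 1) := by
  induction s with
  | zero => simp
  | succ s ih =>
    have h : n ^ (s + 1) ≤ (n + 1) ^ (s + 1) := Nat.pow_le_pow_left (by omega) _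
    calc n ^ (s + 1 + 1) + (s + 1 + 1) * n ^ (s + 1)
        = n * n ^ (s + 1) + (s + 1) * n * n ^ s + n ^ (s + 1) := by ring
      _ ≤ n * (n ^ (s + 1) + (s + 1) * n ^ s) + (n ^ (s + 1) + (s + 1) * n ^ s) := by
          have : (s + 1) * n * n ^ s = n * ((s + 1) * n ^ s) := by ring
          nlinarith [Nat.zero_le ((s + 1) * n ^ s)]
      _ = (n + 1) * (n ^ (s + 1) + (s + 1) * n ^ s) := by ring
      _ ≤ (n + 1) * (n + 1) ^ (s + 1) := Nat.mul_le_mul_left _ ih
      _ = (n + 1) ^ (s + 1 + 1) := by ring

lemma sum_range_pow_le (n s : ℕ) :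
    (s + 1) * ∑ j ∈ range n, (n - j) ^ s ≤ n ^ (s + 1) + (s + 1) * n ^ s := by
  induction n with
  | zero =>
    simp
  | succ n ih =>
    rw [sum_range_succ']
    have h : ∑ j ∈ range n, (n + 1 - (j + 1)) ^ s = ∑ j ∈ range n, (n - j) ^ s := by
      apply sum_congr rfl
      intro j _
      congr 1
      omega
    rw [h]
    have h2 := pow_succ_add_mul_le n s
    simp only [Nat.sub_zero]
    nlinarith

/-- Number of elements of `W` not preceded, within `W`, by a sample point. -/
def hitc {s n : ℕ} (W : Finset (Fin n)) (σ : Fin s → Fin n) : ℕ :=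
  (W.filter (fun c => ∀ i, ¬ (σ i ∈ W ∧ σ i < c))).card

lemma card_avoid {s n : ℕ} (J : Finset (Fin n)) :
    (univ.filter (fun σ : Fin s → Fin n => ∀ i, σ i ∉ J)).card = (n - J.card) ^ s := by
  classical
  have h : univ.filter (fun σ : Fin s → Fin n => ∀ i, σ i ∉ J) =
      Fintype.piFinset (fun _ => Jᶜ) := by
    ext σ
    simp
  rw [h, Fintype.card_piFinset_const, card_compl, Fintype.card_fin]

/-- The average number of elements of `W` before the first hit of the sample is about `n / s`. -/
lemma sum_hitc_le {s n : ℕ} (W : Finset (Fin n)) :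
    (s + 1) * ∑ σ : Fin s → Fin n, hitc W σ ≤ n ^ (s + 1) + (s + 1) * n ^ s := by
  classical
  have h1 : ∑ σ : Fin s → Fin n, hitc W σ =
      ∑ c ∈ W, (univ.filter (fun σ : Fin s → Fin n => ∀ i, ¬ (σ i ∈ W ∧ σ i < c))).card := by
    unfold hitc
    simp only [card_filter]
    rw [sum_comm]
  set idx : Fin n → ℕ := fun c => (W.filter (fun d => d < c)).card with hidx
  have h2 : ∀ c ∈ W, (univ.filter (fun σ : Fin s → Fin n => ∀ i, ¬ (σ i ∈ W ∧ σ i < c))).card =
      (n - idx c) ^ s := by
    intro c _
    rw [hidx]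
    simp only
    rw [← card_avoid (s := s) (W.filter (fun d => d < c))]
    congr 1
    ext σ
    simp
  have hinj : Set.InjOn idx W := by
    intro c hc d hd hcd
    by_contra hne
    have key : ∀ c d : Fin n, c ∈ W → d ∈ W → c < d → idx c < idx d := by
      intro c d hc hd hlt
      apply card_lt_card
      rw [ssubset_iff]
      refine ⟨c, by simp, ?_⟩
      intro z hz
      simp only [mem_insert, mem_filter] at hz ⊢
      rcases hz with rfl | hz
      · exact ⟨hc, hlt⟩
      · exact ⟨hz.1, hz.2.trans hlt⟩
    rcases lt_or_gt_of_ne hne with h | h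
    · exact absurd hcd (key c d hc hd h).ne
    · exact absurd hcd.symm (key d c hd hc h).ne
  have hmaps : ∀ c ∈ W, idx c ∈ range n := by
    intro c _
    rw [mem_range]
    have : (W.filter (fun d => d < c)) ⊆ univ.erase c := by
      intro z hz
      simp only [mem_filter] at hz
      simp [hz.2.ne]
    have h3 := card_le_card this
    rw [card_erase_of_mem (mem_univ c), card_univ, Fintype.card_fin] at h3
    have : 0 < n := c.pos
    simp only [hidx]
    omega
  have h3 : ∑ c ∈ W, (n - idx c) ^ s ≤ ∑ j ∈ range n, (n - j) ^ s := by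
    have := sum_image (s := W) (g := idx) (f := fun j => (n - j) ^ s) hinj
    rw [← this]
    apply sum_le_sum_of_subset
    intro j hj
    obtain ⟨c, hc, rfl⟩ := mem_image.1 hj
    exact hmaps c hc
  rw [h1, sum_congr rfl h2]
  calc (s + 1) * ∑ c ∈ W, (n - idx c) ^ s ≤ (s + 1) * ∑ j ∈ range n, (n - j) ^ s :=
        Nat.mul_le_mul_left _ h3
    _ ≤ n ^ (s + 1) + (s + 1) * n ^ s := sum_range_pow_le n s

end Vale.Agent.Lib.P037
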