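import Mathlib

namespace Vale.Agent.Lib.P037

open Finset

/-- Sorting lemma: for an injective score `f` and a Boolean column `y`, there is a threshold whose
upper set disagrees with `y` in at most `2 √I` places, where `I` counts the inversions. -/
lemma threshold {X : Type*} [Fintype X] [DecidableEq X] (f : X → ℕ)
    (hf : Function.Injective f) (y : X → Bool) :
    ∃ t : ℕ, (univ.filter (fun w => decide (t ≤ f w) ≠ y w)).card ^ 2 ≤
      4 * (univ.filter (fun p : X × X => f p.1 < f p.2 ∧ y p.1 = true ∧ y p.2 = false)).card := by
  classical
  set g : ℕ → ℕ := fun t => (univ.filter (fun w => f w < t)).card with hg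
  set z := (univ.filter (fun w => y w = false)).card with hz
  have h0 : g 0 = 0 := by simp [hg]
  have hstep : ∀ t, g (t + 1) ≤ g t + 1 := by
    intro t
    have hsub : univ.filter (fun w => f w < t + 1) ⊆
        univ.filter (fun w => f w < t) ∪ univ.filter (fun w => f w = t) := by
      intro w hw
      simp only [mem_filter, mem_univ, true_and, mem_union] at hw ⊢
      omega
    have hone : (univ.filter (fun w => f w = t)).card ≤ 1 := by
      rw [card_le_one]
      intro a ha b hb
      simp only [mem_filter, mem_univ, true_and] at ha hb
      exact hf (ha.trans hb.symm)
    calc g (t + 1) ≤ (univ.filter (fun w => f w < t) ∪ univ.filter (fun w => f w = t)).card :=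
          card_le_card hsub
      _ ≤ g t + (univ.filter (fun w => f w = t)).card := card_union_le _ _
      _ ≤ g t + 1 := by omega
  have hK : ∃ K, z ≤ g K := by
    refine ⟨(univ.sup f) + 1, ?_⟩
    have : univ.filter (fun w => f w < (univ.sup f) + 1) = univ := by
      ext w
      simp only [mem_filter, mem_univ, true_and, iff_true]
      have := le_sup (f := f) (mem_univ w)
      omega
    simp only [hg, this]
    exact card_le_card (filter_subset _ _)
  classical
  have ht : ∃ t, g t = z := by
    have hfind := Nat.find_spec hK
    have hmin := fun m => Nat.find_min hK (m := m)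
    refine ⟨Nat.find hK, ?_⟩
    rcases hcase : Nat.find hK with _ | t
    · rw [hcase] at hfind
      rw [h0] at hfind ⊢
      omega
    · have h1 := hmin t (by omega)
      rw [hcase] at hfind
      have h2 := hstep t
      omega
  obtain ⟨t, ht⟩ := ht
  refine ⟨t, ?_⟩
  set a := (univ.filter (fun w => f w < t ∧ y w = true)).card with ha
  set b := (univ.filter (fun w => t ≤ f w ∧ y w = false)).card with hb
  set m := (univ.filter (fun w => f w < t ∧ y w = false)).card with hm
  have h1 : a + m = g t := by
    have : g t = (univ.filter (fun w => f w < t ∧ y w = true) ∪
        univ.filter (fun w => f w < t ∧ y w = false)).card := by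
      simp only [hg]
      congr 1
      ext w
      simp only [mem_filter, mem_univ, true_and, mem_union]
      cases y w <;> simp
    rw [this, card_union_of_disjoint]
    rw [disjoint_left]
    intro w hw hw'
    simp only [mem_filter, mem_univ, true_and] at hw hw'
    rw [hw.2] at hw'
    simp at hw'
  have h2 : m + b = z := by
    have : z = (univ.filter (fun w => f w < t ∧ y w = false) ∪
        univ.filter (fun w => t ≤ f w ∧ y w = false)).card := by
      simp only [hz]
      congr 1
      ext w
      simp only [mem_filter, mem_univ, true_and, mem_union]
      constructor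
      · intro h
        by_cases h' : f w < t
        · exact Or.inl ⟨h', h⟩
        · exact Or.inr ⟨by omega, h⟩
      · rintro (h | h)
        · exact h.2
        · exact h.2
    rw [this, card_union_of_disjoint]
    rw [disjoint_left]
    intro w hw hw'
    simp only [mem_filter, mem_univ, true_and] at hw hw'
    omega
  have hab : a = b := by omega
  have hcost : (univ.filter (fun w => decide (t ≤ f w) ≠ y w)).card = a + b := by
    have : univ.filter (fun w => decide (t ≤ f w) ≠ y w) =
        univ.filter (fun w => f w < t ∧ y w = true) ∪
        univ.filter (fun w => t ≤ f w ∧ y w = false) := by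
      ext w
      simp only [mem_filter, mem_univ, true_and, mem_union]
      by_cases h' : t ≤ f w
      · cases hy : y w <;> simp [h', Nat.not_lt.mpr h']
      · have h'' : f w < t := by omega
        cases hy : y w <;> simp [h', h'']
    rw [this, card_union_of_disjoint]
    rw [disjoint_left]
    intro w hw hw'
    simp only [mem_filter, mem_univ, true_and] at hw hw'
    omega
  have hprod : a * b ≤
      (univ.filter (fun p : X × X => f p.1 < f p.2 ∧ y p.1 = true ∧ y p.2 = false)).card := by
    rw [ha, hb, ← card_product]
    apply card_le_card
    intro p hp
    simp only [mem_product, mem_filter, mem_univ, true_and] at hp ⊢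
    exact ⟨by omega, hp.1.2, hp.2.2⟩
  rw [hcost, ← hab]
  rw [← hab] at hprod
  nlinarith

end Vale.Agent.Lib.P037
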