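import Mathlib
import Vale.Agent.Lib.P037.Thresh

namespace Vale.Agent.Lib.P037

open Finset

section general

variable {X Y : Type*} [LinearOrder X] [LinearOrder Y]

/-- An ordered copy of the diagonal `2 × 2` pattern in `N`. -/
def Cpy (N : X → Y → Bool) (r r' : X) (c c' : Y) : Prop :=
  r < r' ∧ c < c' ∧ N r c = true ∧ N r c' = false ∧ N r' c = false ∧ N r' c' = true

/-- No copy of the diagonal pattern whose two columns lie in `T`. -/
def FreeOn (T : Finset Y) (N : X → Y → Bool) : Prop :=
  ∀ r r' c c', c ∈ T → c' ∈ T → ¬ Cpy N r r' c c'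

/-- No copy of the diagonal pattern at all. -/
def Free (N : X → Y → Bool) : Prop :=
  ∀ r r' c c', ¬ Cpy N r r' c c'

/-- The template column `κ ∈ T` left of `c` separates `r` from `r'` in the favoured direction. -/
def Seen (T : Finset Y) (N : X → Y → Bool) (c : Y) (r r' : X) : Prop :=
  ∃ κ ∈ T, κ < c ∧ N r κ = true ∧ N r' κ = false

/-- The tournament on rows attached to the column `c`. -/
def Tour (T : Finset Y) (N : X → Y → Bool) (c : Y) (a b : X) : Prop :=
  (a < b ∧ ¬ Seen T N c a b) ∨ (b < a ∧ Seen T N c b a)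

variable {T : Finset Y} {N : X → Y → Bool} {c : Y}

lemma tour_irrefl (a : X) : ¬ Tour T N c a a := by
  rintro (h | h) <;> exact lt_irrefl _ h.1

lemma tour_total {a b : X} (h : a ≠ b) : Tour T N c a b ∨ Tour T N c b a := by
  rcases lt_or_gt_of_ne h with h | h
  · by_cases hs : Seen T N c a b
    · exact Or.inr (Or.inr ⟨h, hs⟩)
    · exact Or.inl (Or.inl ⟨h, hs⟩)
  · by_cases hs : Seen T N c b a
    · exact Or.inl (Or.inr ⟨h, hs⟩)
    · exact Or.inr (Or.inl ⟨h, hs⟩)

lemma tour_trans (hN : FreeOn T N) {a b d : X}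
    (hab : Tour T N c a b) (hbd : Tour T N c b d) : Tour T N c a d := by
  rcases hab with ⟨hlt1, hs1⟩ | ⟨hlt1, hs1⟩ <;> rcases hbd with ⟨hlt2, hs2⟩ | ⟨hlt2, hs2⟩
  · -- a < b < d
    refine Or.inl ⟨hlt1.trans hlt2, ?_⟩
    rintro ⟨κ, hκ, hlt, h1, h2⟩
    cases hb : N b κ
    · exact hs1 ⟨κ, hκ, hlt, h1, hb⟩
    · exact hs2 ⟨κ, hκ, hlt, hb, h2⟩
  · -- a < b, d < b, ¬S(a,b), S(d,b)
    rcases lt_trichotomy a d with h | h | h
    · refine Or.inl ⟨h, ?_⟩
      rintro ⟨κ1, hκ1, hlt1', h1, h2⟩
      obtain ⟨κ2, hκ2, hlt2', h3, h4⟩ := hs2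
      have h5 : N a κ2 = false := by
        cases h' : N a κ2
        · rfl
        · exact absurd ⟨κ2, hκ2, hlt2', h', h4⟩ hs1
      have h6 : N b κ1 = true := by
        cases h' : N b κ1
        · exact absurd ⟨κ1, hκ1, hlt1', h1, h'⟩ hs1
        · rfl
      rcases lt_trichotomy κ1 κ2 with hk | hk | hk
      · exact hN a d κ1 κ2 hκ1 hκ2 ⟨h, hk, h1, h5, h2, h3⟩
      · subst hk; rw [h1] at h5; exact absurd h5 (by simp)
      · exact hN d b κ2 κ1 hκ2 hκ1 ⟨hlt2, hk, h3, h2, h4, h6⟩
    · subst h; exact absurd hs2 hs1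
    · refine Or.inr ⟨h, ?_⟩
      obtain ⟨κ2, hκ2, hlt2', h3, h4⟩ := hs2
      refine ⟨κ2, hκ2, hlt2', h3, ?_⟩
      cases h' : N a κ2
      · rfl
      · exact absurd ⟨κ2, hκ2, hlt2', h', h4⟩ hs1
  · -- b < a, b < d, S(b,a), ¬S(b,d)
    rcases lt_trichotomy a d with h | h | h
    · refine Or.inl ⟨h, ?_⟩
      rintro ⟨κ2, hκ2, hlt2', h3, h4⟩
      obtain ⟨κ1, hκ1, hlt1', h1, h2⟩ := hs1
      have h5 : N d κ1 = true := by
        cases h' : N d κ1
        · exact absurd ⟨κ1, hκ1, hlt1', h1, h'⟩ hs2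
        · rfl
      have h6 : N b κ2 = false := by
        cases h' : N b κ2
        · rfl
        · exact absurd ⟨κ2, hκ2, hlt2', h', h4⟩ hs2
      rcases lt_trichotomy κ1 κ2 with hk | hk | hk
      · exact hN b a κ1 κ2 hκ1 hκ2 ⟨hlt1, hk, h1, h6, h2, h3⟩
      · subst hk; rw [h1] at h6; exact absurd h6 (by simp)
      · exact hN a d κ2 κ1 hκ2 hκ1 ⟨h, hk, h3, h2, h4, h5⟩
    · subst h; exact absurd hs1 hs2
    · refine Or.inr ⟨h, ?_⟩
      obtain ⟨κ1, hκ1, hlt1', h1, h2⟩ := hs1
      refine ⟨κ1, hκ1, hlt1', ?_, h2⟩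
      cases h' : N d κ1
      · exact absurd ⟨κ1, hκ1, hlt1', h1, h'⟩ hs2
      · rfl
  · -- d < b < a, S(b,a), S(d,b)
    refine Or.inr ⟨hlt2.trans hlt1, ?_⟩
    obtain ⟨κ1, hκ1, hlt1', h1, h2⟩ := hs1
    obtain ⟨κ2, hκ2, hlt2', h3, h4⟩ := hs2
    by_cases h5 : N d κ1 = true
    · exact ⟨κ1, hκ1, hlt1', h5, h2⟩
    by_cases h6 : N a κ2 = false
    · exact ⟨κ2, hκ2, hlt2', h3, h6⟩
    exfalso
    have h5' : N d κ1 = false := by simpa using h5
    have h6' : N a κ2 = true := by simpa using h6
    rcases lt_trichotomy κ1 κ2 with hk | hk | hk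
    · exact hN b a κ1 κ2 hκ1 hκ2 ⟨hlt1, hk, h1, h4, h2, h6'⟩
    · subst hk; rw [h1] at h4; exact absurd h4 (by simp)
    · exact hN d b κ2 κ1 hκ2 hκ1 ⟨hlt2, hk, h3, h5', h4, h1⟩

lemma seen_mono {c c' : Y} (h : c < c') {r r' : X} (hs : Seen T N c r r') : Seen T N c' r r' := by
  obtain ⟨κ, hκ, hlt, h1, h2⟩ := hs
  exact ⟨κ, hκ, hlt.trans h, h1, h2⟩

variable [Fintype X]

open Classical in
/-- The position of the row `w` in the order given by the tournament at column `c`. -/
noncomputable def rank (T : Finset Y) (N : X → Y → Bool) (c : Y) (w : X) : ℕ :=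
  (univ.filter (fun z => Tour T N c z w)).card

lemma rank_lt (hN : FreeOn T N) {a b : X} (h : Tour T N c a b) : rank T N c a < rank T N c b := by
  classical
  unfold rank
  apply card_lt_card
  rw [ssubset_iff]
  refine ⟨a, ?_, ?_⟩
  · simp [tour_irrefl]
  · intro z hz
    simp only [mem_insert, mem_filter, mem_univ, true_and] at hz ⊢
    rcases hz with rfl | hz
    · exact h
    · exact tour_trans hN hz h

lemma rank_injective (hN : FreeOn T N) : Function.Injective (rank T N c) := by
  intro a b hab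
  by_contra hne
  rcases tour_total (T := T) (N := N) (c := c) hne with h | h
  · exact absurd hab (rank_lt hN h).ne
  · exact absurd hab.symm (rank_lt hN h).ne

lemma lt_rank_iff (hN : FreeOn T N) {a b : X} :
    rank T N c a < rank T N c b ↔ Tour T N c a b := by
  constructor
  · intro h
    have hne : a ≠ b := by
      rintro rfl
      exact lt_irrefl _ h
    rcases tour_total (T := T) (N := N) (c := c) hne with h' | h'
    · exact h'
    · exact absurd h (by have := rank_lt hN h'; omega)
  · exact rank_lt hN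

end general

section extension

variable {X Y : Type*} [LinearOrder X] [Fintype X] [LinearOrder Y] [Fintype Y]

open Classical in
/-- Number of entries in which two matrices differ. -/
noncomputable def diffN (A B : X → Y → Bool) : ℕ :=
  (univ.filter (fun p : X × Y => A p.1 p.2 ≠ B p.1 p.2)).card

open Classical in
/-- Inversions of the column `c` of `M` with respect to the tournament at `c`. -/
noncomputable def inv (T : Finset Y) (N M : X → Y → Bool) (c : Y) : ℕ :=
  (univ.filter (fun p : X × X => Tour T N c p.1 p.2 ∧ M p.1 c = true ∧ M p.2 c = false)).card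

/-- Extension lemma: a template free on `T` yields a globally free matrix close to `M`. -/
theorem ext_lemma (T : Finset Y) (N M : X → Y → Bool) (hN : FreeOn T N) :
    ∃ B : X → Y → Bool, Free B ∧
      (diffN M B) ^ 2 ≤ 4 * Fintype.card Y * ∑ c, inv T N M c := by
  classical
  have hex : ∀ c : Y, ∃ t : ℕ, (univ.filter (fun w => decide (t ≤ rank T N c w) ≠ M w c)).card ^ 2 ≤
      4 * inv T N M c := by
    intro c
    obtain ⟨t, ht⟩ := threshold (rank T N c) (rank_injective hN) (fun w => M w c)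
    refine ⟨t, ht.trans ?_⟩
    apply Nat.mul_le_mul_left
    unfold inv
    apply card_le_card
    intro p hp
    simp only [mem_filter, mem_univ, true_and] at hp ⊢
    exact ⟨(lt_rank_iff hN).1 hp.1, hp.2⟩
  choose t ht using hex
  refine ⟨fun w c => decide (t c ≤ rank T N c w), ?_, ?_⟩
  · rintro r r' c c' ⟨hr, hc, h1, h2, h3, h4⟩
    simp only [decide_eq_true_eq, decide_eq_false_iff_not, not_le] at h1 h2 h3 h4
    have h5 : Tour T N c r' r := (lt_rank_iff hN).1 (by omega)
    have h6 : Seen T N c r r' := by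
      rcases h5 with h5 | h5
      · exact absurd h5.1 (not_lt.2 hr.le)
      · exact h5.2
    have h7 : Tour T N c' r' r := Or.inr ⟨hr, seen_mono hc h6⟩
    have h8 := rank_lt hN h7
    omega
  · set x : Y → ℕ := fun c => (univ.filter (fun w => decide (t c ≤ rank T N c w) ≠ M w c)).card
      with hx
    have hd : diffN M (fun w c => decide (t c ≤ rank T N c w)) = ∑ c, x c := by
      unfold diffN
      have : (univ.filter (fun p : X × Y => M p.1 p.2 ≠ decide (t p.2 ≤ rank T N p.2 p.1))).card =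
          ∑ c, (univ.filter (fun w => decide (t c ≤ rank T N c w) ≠ M w c)).card := by
        rw [card_filter, ← univ_product_univ, sum_product_right]
        apply sum_congr rfl
        intro c _
        rw [card_filter]
        apply sum_congr rfl
        intro w _
        simp only [ne_comm]
      exact this
    rw [hd]
    calc (∑ c, x c) ^ 2 ≤ (univ : Finset Y).card * ∑ c, x c ^ 2 := sq_sum_le_card_mul_sum_sq
      _ ≤ (univ : Finset Y).card * ∑ c, 4 * inv T N M c := by
          apply Nat.mul_le_mul_left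
          exact sum_le_sum (fun c _ => ht c)
      _ = 4 * Fintype.card Y * ∑ c, inv T N M c := by
          rw [← mul_sum, card_univ]
          ring

end extension

end Vale.Agent.Lib.P037
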