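import Mathlib
import Vale.Agent.Lib.P037.Tour
import Vale.Agent.Lib.P037.Sample

namespace Vale.Agent.Lib.P037

open Finset

variable {n : ℕ} (A : Fin n → Fin n → Bool)

open Classical in
/-- Indicator of a copy. -/
noncomputable def pc (r r' c c' : Fin n) : ℕ := if Cpy A r r' c c' then 1 else 0

/-- Total number of copies of the diagonal pattern. -/
noncomputable def NN : ℕ := ∑ r, ∑ r', ∑ c, ∑ c', pc A r r' c c'

/-- Columns separating the row `a` from the row `b`. -/
def Wr (a b : Fin n) : Finset (Fin n) := univ.filter (fun c => A a c = true ∧ A b c = false)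

/-- Rows separating the column `κ` from the column `κ'`. -/
def Wc (κ κ' : Fin n) : Finset (Fin n) := univ.filter (fun r => A r κ = true ∧ A r κ' = false)

variable {s t : ℕ}

/-- Copies inside the sample. -/
noncomputable def ZZ (σ : Fin s → Fin n) (ρ : Fin t → Fin n) : ℕ :=
  ∑ i, ∑ i', ∑ j, ∑ j', pc A (ρ j) (ρ j') (σ i) (σ i')

/-- Cost at the first level. -/
noncomputable def L1 (σ : Fin s → Fin n) (ρ : Fin t → Fin n) : ℕ :=
  ∑ i, ∑ i', (∑ j, ∑ c, pc A (ρ j) c (σ i') (σ i) + hitc (Wc A (σ i) (σ i')) ρ)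

/-- Cost at the second level. -/
noncomputable def L2 (σ : Fin s → Fin n) : ℕ :=
  ∑ a, ∑ b, (∑ i, ∑ c, pc A b a (σ i) c + hitc (Wr A a b) σ)

lemma pc_eq_one {r r' c c' : Fin n} (h : Cpy A r r' c c') : pc A r r' c c' = 1 := by
  simp [pc, h]

lemma pc_rr (r c c' : Fin n) : pc A r r c c' = 0 := by
  have : ¬ Cpy A r r c c' := fun h => lt_irrefl _ h.1
  simp [pc, this]

lemma pc_cc (r r' c : Fin n) : pc A r r' c c = 0 := by
  have : ¬ Cpy A r r' c c := fun h => lt_irrefl _ h.2.1
  simp [pc, this]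

lemma sum_image_le_index {α : Type*} [DecidableEq α] (σ : Fin s → α) (f : α → ℕ) :
    ∑ a : (image σ univ : Finset α), f a ≤ ∑ i, f (σ i) := by
  rw [sum_coe_sort (image σ univ) f, sum_comp f σ]
  apply sum_le_sum
  intro x hx
  rw [smul_eq_mul]
  apply Nat.le_mul_of_pos_left
  rw [card_pos]
  obtain ⟨i, _, rfl⟩ := mem_image.1 hx
  exact ⟨i, by simp⟩

lemma sum_image_le_index2 {α : Type*} [DecidableEq α] (σ : Fin s → α) (f : α → α → ℕ) :
    ∑ a : (image σ univ : Finset α), ∑ b : (image σ univ : Finset α), f a b ≤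
      ∑ i, ∑ i', f (σ i) (σ i') := by
  calc ∑ a : (image σ univ : Finset α), ∑ b : (image σ univ : Finset α), f a b
      ≤ ∑ a : (image σ univ : Finset α), ∑ i', f a (σ i') :=
        sum_le_sum (fun a _ => sum_image_le_index σ (fun b => f a b))
    _ ≤ ∑ i, ∑ i', f (σ i) (σ i') := sum_image_le_index σ (fun a => ∑ i', f a (σ i'))

open Classical in
/-- First level: build a free matrix on the sampled columns. -/
lemma level1 (σ : Fin s → Fin n) (ρ : Fin t → Fin n) (hZ : ZZ A σ ρ = 0) :
    ∃ B1 : ↥(image σ univ) → Fin n → Bool, Free B1 ∧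
      (diffN (fun (κ : ↥(image σ univ)) r => A r κ) B1) ^ 2 ≤
        4 * n * L1 A σ ρ := by
  set M1 : ↥(image σ univ) → Fin n → Bool := fun κ r => A r κ with hM1
  set R : Finset (Fin n) := image ρ univ with hR
  have hfree : FreeOn R M1 := by
    rintro κ κ' r r' hr hr' ⟨hκ, hrr, h1, h2, h3, h4⟩
    obtain ⟨j, _, rfl⟩ := mem_image.1 hr
    obtain ⟨j', _, rfl⟩ := mem_image.1 hr'
    obtain ⟨i, _, hi⟩ := mem_image.1 κ.2
    obtain ⟨i', _, hi'⟩ := mem_image.1 κ'.2
    have hc : Cpy A (ρ j) (ρ j') (σ i) (σ i') := by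
      refine ⟨hrr, ?_, ?_, ?_, ?_, ?_⟩
      · rw [hi, hi']; exact hκ
      · rw [hi]; exact h1
      · rw [hi']; exact h3
      · rw [hi]; exact h2
      · rw [hi']; exact h4
    have hpos : 0 < ZZ A σ ρ := by
      unfold ZZ
      refine lt_of_lt_of_le ?_ (single_le_sum (f := fun i => ∑ i', ∑ j, ∑ j',
        pc A (ρ j) (ρ j') (σ i) (σ i')) (fun _ _ => Nat.zero_le _) (mem_univ i))
      refine lt_of_lt_of_le ?_ (single_le_sum (f := fun i' => ∑ j, ∑ j',
        pc A (ρ j) (ρ j') (σ i) (σ i')) (fun _ _ => Nat.zero_le _) (mem_univ i'))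
      refine lt_of_lt_of_le ?_ (single_le_sum (f := fun j => ∑ j',
        pc A (ρ j) (ρ j') (σ i) (σ i')) (fun _ _ => Nat.zero_le _) (mem_univ j))
      refine lt_of_lt_of_le ?_ (single_le_sum (f := fun j' =>
        pc A (ρ j) (ρ j') (σ i) (σ i')) (fun _ _ => Nat.zero_le _) (mem_univ j'))
      rw [pc_eq_one A hc]
      exact Nat.one_pos
    omega
  obtain ⟨B1, hB1, hd⟩ := ext_lemma R M1 M1 hfree
  refine ⟨B1, hB1, ?_⟩
  rw [Fintype.card_fin] at hd
  refine hd.trans (Nat.mul_le_mul_left _ ?_)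
  -- the pairwise bound
  set F : Fin n → Fin n → ℕ := fun a b =>
    ∑ j, ∑ c, pc A (ρ j) c b a + hitc (Wc A a b) ρ with hF
  have hpair : ∀ a b : (image σ univ : Finset (Fin n)),
      (univ.filter (fun c : Fin n => Tour R M1 c a b ∧ M1 a c = true ∧ M1 b c = false)).card ≤
        F a b := by
    intro a b
    have hsub : univ.filter (fun c : Fin n => Tour R M1 c a b ∧ M1 a c = true ∧ M1 b c = false) ⊆
        univ.filter (fun c : Fin n => ∃ j, Cpy A (ρ j) c b a) ∪
        (Wc A a b).filter (fun c => ∀ j, ¬ (ρ j ∈ Wc A a b ∧ ρ j < c)) := by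
      intro c hc
      simp only [mem_filter, mem_univ, true_and, mem_union] at hc ⊢
      obtain ⟨hT, h1, h2⟩ := hc
      rcases hT with ⟨hlt, hns⟩ | ⟨hlt, hs⟩
      · right
        refine ⟨?_, ?_⟩
        · simp only [Wc, mem_filter, mem_univ, true_and]
          exact ⟨h1, h2⟩
        · rintro j ⟨hj, hjc⟩
          simp only [Wc, mem_filter, mem_univ, true_and] at hj
          apply hns
          exact ⟨ρ j, mem_image_of_mem ρ (mem_univ j), hjc, hj.1, hj.2⟩
      · left
        obtain ⟨κ, hκ, hκc, h3, h4⟩ := hs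
        obtain ⟨j, _, rfl⟩ := mem_image.1 hκ
        exact ⟨j, hκc, hlt, h3, h4, h2, h1⟩
    refine (card_le_card hsub).trans ((card_union_le _ _).trans ?_)
    simp only [hF]
    apply Nat.add_le_add
    · rw [sum_comm, card_filter]
      apply sum_le_sum
      intro c _
      split_ifs with h
      · obtain ⟨j, hj⟩ := h
        have := single_le_sum (f := fun j => pc A (ρ j) c (b : Fin n) (a : Fin n))
          (fun _ _ => Nat.zero_le _) (mem_univ j)
        simp only [pc_eq_one A hj] at this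
        exact this
      · exact Nat.zero_le _
    · exact le_refl _
  have hswap : ∑ c : Fin n, inv R M1 M1 c = ∑ a : (image σ univ : Finset (Fin n)),
      ∑ b : (image σ univ : Finset (Fin n)),
      (univ.filter (fun c : Fin n => Tour R M1 c a b ∧ M1 a c = true ∧ M1 b c = false)).card := by
    unfold inv
    simp only [card_filter]
    rw [sum_comm]
    simp only [← univ_product_univ, sum_product]
  rw [hswap]
  calc _ ≤ ∑ a : (image σ univ : Finset (Fin n)), ∑ b : (image σ univ : Finset (Fin n)),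
        F a b := sum_le_sum (fun a _ => sum_le_sum (fun b _ => hpair a b))
    _ ≤ ∑ i, ∑ i', F (σ i) (σ i') := sum_image_le_index2 σ F
    _ = L1 A σ ρ := rfl

open Classical in
/-- Second level: extend the free matrix on the sampled columns to all columns. -/
lemma level2 (σ : Fin s → Fin n) (T : Finset (Fin n)) (hT : T = image σ univ)
    (B1 : ↥T → Fin n → Bool) (hB1 : Free B1) :
    ∃ B : Fin n → Fin n → Bool, Free B ∧
      (diffN A B) ^ 2 ≤ 4 * n * (L2 A σ + 2 * n ^ 2 *
        diffN (fun (κ : ↥T) r => A r κ) B1) := by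
  set N2 : Fin n → Fin n → Bool := fun r κ => if h : κ ∈ T then B1 ⟨κ, h⟩ r else A r κ with hN2
  have hfree : FreeOn T N2 := by
    rintro r r' κ κ' hκ hκ' ⟨hr, hlt, h1, h2, h3, h4⟩
    simp only [hN2, dif_pos hκ, dif_pos hκ'] at h1 h2 h3 h4
    exact hB1 ⟨κ, hκ⟩ ⟨κ', hκ'⟩ r r' ⟨hlt, hr, h1, h3, h2, h4⟩
  obtain ⟨B, hB, hd⟩ := ext_lemma T N2 A hfree
  refine ⟨B, hB, ?_⟩
  rw [Fintype.card_fin] at hd
  refine hd.trans (Nat.mul_le_mul_left _ ?_)
  set D := diffN (fun (κ : ↥T) r => A r κ) B1 with hD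
  set E : Finset (Fin n) := univ.filter (fun x => ∃ κ ∈ T, N2 x κ ≠ A x κ) with hE
  have hEcard : E.card ≤ D := by
    have hsub : E ⊆ (univ.filter (fun p : ↥T × Fin n => A p.2 p.1 ≠ B1 p.1 p.2)).image Prod.snd := by
      intro x hx
      simp only [hE, mem_filter, mem_univ, true_and] at hx
      obtain ⟨κ, hκ, hne⟩ := hx
      simp only [hN2, dif_pos hκ] at hne
      refine mem_image.2 ⟨(⟨κ, hκ⟩, x), ?_, rfl⟩
      simp only [mem_filter, mem_univ, true_and]
      exact fun h => hne h.symm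
    exact (card_le_card hsub).trans card_image_le
  have hmem : ∀ i, σ i ∈ T := fun i => by rw [hT]; exact mem_image_of_mem σ (mem_univ i)
  have hagree : ∀ x, x ∉ E → ∀ κ ∈ T, N2 x κ = A x κ := by
    intro x hx κ hκ
    by_contra hne
    exact hx (by simp only [hE, mem_filter, mem_univ, true_and]; exact ⟨κ, hκ, hne⟩)
  have hpoint : ∀ a b c : Fin n, (if Tour T N2 c a b ∧ A a c = true ∧ A b c = false then 1 else 0) ≤
      (if a ∈ E then 1 else 0) + (if b ∈ E then 1 else 0) +
      (∑ i, pc A b a (σ i) c +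
        (if c ∈ Wr A a b ∧ ∀ i, ¬ (σ i ∈ Wr A a b ∧ σ i < c) then 1 else 0)) := by
    intro a b c
    by_cases h : Tour T N2 c a b ∧ A a c = true ∧ A b c = false
    · rw [if_pos h]
      obtain ⟨hT', h1, h2⟩ := h
      by_cases ha : a ∈ E
      · rw [if_pos ha]; omega
      by_cases hb : b ∈ E
      · rw [if_pos hb]; omega
      have ha' := hagree a ha
      have hb' := hagree b hb
      rcases hT' with ⟨hlt, hns⟩ | ⟨hlt, hs⟩
      · have : c ∈ Wr A a b ∧ ∀ i, ¬ (σ i ∈ Wr A a b ∧ σ i < c) := by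
          constructor
          · simp only [Wr, mem_filter, mem_univ, true_and]
            exact ⟨h1, h2⟩
          · rintro i ⟨hi, hic⟩
            simp only [Wr, mem_filter, mem_univ, true_and] at hi
            apply hns
            refine ⟨σ i, hmem i, hic, ?_, ?_⟩
            · rw [ha' _ (hmem i)]; exact hi.1
            · rw [hb' _ (hmem i)]; exact hi.2
        rw [if_pos this]; omega
      · obtain ⟨κ, hκ, hκc, h3, h4⟩ := hs
        rw [hb' _ hκ] at h3
        rw [ha' _ hκ] at h4
        rw [hT] at hκ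
        obtain ⟨i, _, rfl⟩ := mem_image.1 hκ
        have hc : Cpy A b a (σ i) c := ⟨hlt, hκc, h3, h2, h4, h1⟩
        have := single_le_sum (f := fun i => pc A b a (σ i) c)
          (fun _ _ => Nat.zero_le _) (mem_univ i)
        simp only [pc_eq_one A hc] at this
        omega
    · rw [if_neg h]
      exact Nat.zero_le _
  have hswap : ∑ c : Fin n, inv T N2 A c = ∑ a : Fin n, ∑ b : Fin n, ∑ c : Fin n,
      (if Tour T N2 c a b ∧ A a c = true ∧ A b c = false then 1 else 0) := by
    unfold inv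
    simp only [card_filter]
    rw [sum_comm]
    simp only [← univ_product_univ, sum_product]
  have hhit : ∀ a b : Fin n, ∑ c : Fin n,
      (if c ∈ Wr A a b ∧ ∀ i, ¬ (σ i ∈ Wr A a b ∧ σ i < c) then 1 else 0) = hitc (Wr A a b) σ := by
    intro a b
    unfold hitc
    rw [← card_filter]
    congr 1
    ext c
    simp
  have hmain : ∑ c : Fin n, inv T N2 A c ≤ L2 A σ + 2 * n ^ 2 * E.card := by
    rw [hswap]
    calc _ ≤ ∑ a : Fin n, ∑ b : Fin n, ∑ c : Fin n, ((if a ∈ E then 1 else 0) +
          (if b ∈ E then 1 else 0) + (∑ i, pc A b a (σ i) c +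
          (if c ∈ Wr A a b ∧ ∀ i, ¬ (σ i ∈ Wr A a b ∧ σ i < c) then 1 else 0))) :=
          sum_le_sum (fun a _ => sum_le_sum (fun b _ => sum_le_sum (fun c _ => hpoint a b c)))
      _ = ∑ a : Fin n, ∑ b : Fin n, ((n * (if a ∈ E then 1 else 0) +
          n * (if b ∈ E then 1 else 0)) + (∑ i, ∑ c, pc A b a (σ i) c + hitc (Wr A a b) σ)) := by
          apply sum_congr rfl
          intro a _
          apply sum_congr rfl
          intro b _
          rw [sum_add_distrib, sum_add_distrib, sum_add_distrib, hhit, sum_const, sum_const,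
            sum_comm (s := univ) (t := univ)]
          simp only [card_univ, Fintype.card_fin, smul_eq_mul]
      _ = ∑ a : Fin n, ∑ b : Fin n, (n * (if a ∈ E then 1 else 0) +
          n * (if b ∈ E then 1 else 0)) + L2 A σ := by
          unfold L2
          simp only [sum_add_distrib]
      _ = (n * (n * E.card) + n * (n * E.card)) + L2 A σ := by
          congr 1
          simp only [sum_add_distrib, sum_const, card_univ, Fintype.card_fin, smul_eq_mul,
            ← mul_sum, sum_boole, Nat.cast_id]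
          congr 3
          all_goals simp
      _ = L2 A σ + 2 * n ^ 2 * E.card := by ring
  refine hmain.trans ?_
  have : 2 * n ^ 2 * E.card ≤ 2 * n ^ 2 * D := Nat.mul_le_mul_left _ hEcard
  omega

end Vale.Agent.Lib.P037
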