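import Mathlib
import Vale.Agent.Lib.P037.Levels

namespace Vale.Agent.Lib.P037

open Finset

variable {n : ℕ} (A : Fin n → Fin n → Bool) {s t : ℕ}

lemma NN_formZ : ∑ κ, ∑ κ', ∑ r, ∑ r', pc A r r' κ κ' = NN A := by
  unfold NN
  calc ∑ κ, ∑ κ', ∑ r, ∑ r', pc A r r' κ κ' = ∑ κ, ∑ r, ∑ κ', ∑ r', pc A r r' κ κ' :=
        sum_congr rfl (fun _ _ => sum_comm)
    _ = ∑ r, ∑ κ, ∑ κ', ∑ r', pc A r r' κ κ' := sum_comm
    _ = ∑ r, ∑ κ, ∑ r', ∑ κ', pc A r r' κ κ' :=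
        sum_congr rfl (fun _ _ => sum_congr rfl (fun _ _ => sum_comm))
    _ = ∑ r, ∑ r', ∑ κ, ∑ κ', pc A r r' κ κ' := sum_congr rfl (fun _ _ => sum_comm)

lemma NN_formCA : ∑ a, ∑ b, ∑ x, ∑ c, pc A x c b a = NN A := by
  rw [sum_comm]
  exact NN_formZ A

lemma NN_formCB : ∑ κ, ∑ a, ∑ b, ∑ c, pc A b a κ c = NN A := by
  unfold NN
  calc ∑ κ, ∑ a, ∑ b, ∑ c, pc A b a κ c = ∑ κ, ∑ b, ∑ a, ∑ c, pc A b a κ c :=
        sum_congr rfl (fun _ _ => sum_comm)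
    _ = ∑ b, ∑ κ, ∑ a, ∑ c, pc A b a κ c := sum_comm
    _ = ∑ b, ∑ a, ∑ κ, ∑ c, pc A b a κ c := sum_congr rfl (fun _ _ => sum_comm)

lemma avg1 (G : Fin n → ℕ) :
    n * ∑ σ : Fin s → Fin n, ∑ i, G (σ i) = s * n ^ s * ∑ x, G x := by
  rw [sum_comm, mul_sum]
  have : ∀ i : Fin s, n * ∑ σ : Fin s → Fin n, G (σ i) = n ^ s * ∑ x, G x := fun i => sum_one i G
  rw [sum_congr rfl (fun i _ => this i), sum_const, card_univ, Fintype.card_fin, smul_eq_mul]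
  ring

lemma avg2 (G : Fin n → Fin n → ℕ) (hG : ∀ x, G x x = 0) :
    n ^ 2 * ∑ σ : Fin s → Fin n, ∑ i, ∑ i', G (σ i) (σ i') ≤
      s ^ 2 * n ^ s * ∑ x, ∑ y, G x y := by
  have h1 : ∑ σ : Fin s → Fin n, ∑ i, ∑ i', G (σ i) (σ i') =
      ∑ i, ∑ i', ∑ σ : Fin s → Fin n, G (σ i) (σ i') := by
    rw [sum_comm]
    exact sum_congr rfl (fun _ _ => sum_comm)
  rw [h1, mul_sum]
  calc ∑ i, n ^ 2 * ∑ i', ∑ σ : Fin s → Fin n, G (σ i) (σ i')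
      = ∑ i : Fin s, ∑ i' : Fin s, n ^ 2 * ∑ σ : Fin s → Fin n, G (σ i) (σ i') :=
        sum_congr rfl (fun _ _ => mul_sum _ _ _)
    _ ≤ ∑ _i : Fin s, ∑ _i' : Fin s, n ^ s * ∑ x, ∑ y, G x y :=
        sum_le_sum (fun i _ => sum_le_sum (fun i' _ => sum_two_le i i' G hG))
    _ = s ^ 2 * n ^ s * ∑ x, ∑ y, G x y := by
        simp only [sum_const, card_univ, Fintype.card_fin, smul_eq_mul]
        ring

/-- Sum of the number of copies within the sample. -/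
lemma avgZ : n ^ 4 * ∑ σ : Fin s → Fin n, ∑ ρ : Fin t → Fin n, ZZ A σ ρ ≤
    s ^ 2 * t ^ 2 * n ^ s * n ^ t * NN A := by
  set G : Fin n → Fin n → ℕ := fun κ κ' => ∑ r, ∑ r', pc A r r' κ κ' with hG
  have hinner : ∀ σ : Fin s → Fin n, n ^ 2 * ∑ ρ : Fin t → Fin n, ZZ A σ ρ ≤
      t ^ 2 * n ^ t * ∑ i, ∑ i', G (σ i) (σ i') := by
    intro σ
    have h1 : ∑ ρ : Fin t → Fin n, ZZ A σ ρ =
        ∑ i, ∑ i', ∑ ρ : Fin t → Fin n, ∑ j, ∑ j', pc A (ρ j) (ρ j') (σ i) (σ i') := by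
      unfold ZZ
      rw [sum_comm]
      exact sum_congr rfl (fun _ _ => sum_comm)
    rw [h1, mul_sum, mul_sum]
    apply sum_le_sum
    intro i _
    rw [mul_sum, mul_sum]
    apply sum_le_sum
    intro i' _
    exact avg2 (fun r r' => pc A r r' (σ i) (σ i')) (fun x => pc_rr A x _ _)
  have hG0 : ∀ x, G x x = 0 := by
    intro x
    simp [hG, pc_cc]
  have h2 := avg2 (s := s) G hG0
  have h3 : ∑ x, ∑ y, G x y = NN A := NN_formZ A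
  rw [h3] at h2
  calc n ^ 4 * ∑ σ : Fin s → Fin n, ∑ ρ : Fin t → Fin n, ZZ A σ ρ
      = n ^ 2 * ∑ σ : Fin s → Fin n, (n ^ 2 * ∑ ρ : Fin t → Fin n, ZZ A σ ρ) := by
        rw [← mul_sum]; ring
    _ ≤ n ^ 2 * ∑ σ : Fin s → Fin n, (t ^ 2 * n ^ t * ∑ i, ∑ i', G (σ i) (σ i')) :=
        Nat.mul_le_mul_left _ (sum_le_sum (fun σ _ => hinner σ))
    _ = t ^ 2 * n ^ t * (n ^ 2 * ∑ σ : Fin s → Fin n, ∑ i, ∑ i', G (σ i) (σ i')) := by
        rw [← mul_sum]; ring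
    _ ≤ t ^ 2 * n ^ t * (s ^ 2 * n ^ s * NN A) := Nat.mul_le_mul_left _ h2
    _ = s ^ 2 * t ^ 2 * n ^ s * n ^ t * NN A := by ring

/-- The copy part of the first level cost. -/
noncomputable def CA (σ : Fin s → Fin n) (ρ : Fin t → Fin n) : ℕ :=
  ∑ i, ∑ i', ∑ j, ∑ c, pc A (ρ j) c (σ i') (σ i)

/-- The hitting part of the first level cost. -/
def HA (σ : Fin s → Fin n) (ρ : Fin t → Fin n) : ℕ :=
  ∑ i, ∑ i', hitc (Wc A (σ i) (σ i')) ρ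

/-- The copy part of the second level cost. -/
noncomputable def CB (σ : Fin s → Fin n) : ℕ :=
  ∑ a, ∑ b, ∑ i, ∑ c, pc A b a (σ i) c

/-- The hitting part of the second level cost. -/
def HB (σ : Fin s → Fin n) : ℕ :=
  ∑ a, ∑ b, hitc (Wr A a b) σ

lemma L1_eq (σ : Fin s → Fin n) (ρ : Fin t → Fin n) : L1 A σ ρ = CA A σ ρ + HA A σ ρ := by
  unfold L1 CA HA
  simp only [sum_add_distrib]

lemma L2_eq (σ : Fin s → Fin n) : L2 A σ = CB A σ + HB A σ := by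
  unfold L2 CB HB
  simp only [sum_add_distrib]

lemma avgCA : n ^ 3 * ∑ σ : Fin s → Fin n, ∑ ρ : Fin t → Fin n, CA A σ ρ ≤
    s ^ 2 * t * n ^ s * n ^ t * NN A := by
  set G : Fin n → Fin n → ℕ := fun a b => ∑ x, ∑ c, pc A x c b a with hG
  have hinner : ∀ σ : Fin s → Fin n, n * ∑ ρ : Fin t → Fin n, CA A σ ρ =
      t * n ^ t * ∑ i, ∑ i', G (σ i) (σ i') := by
    intro σ
    have h1 : ∑ ρ : Fin t → Fin n, CA A σ ρ =
        ∑ i, ∑ i', ∑ ρ : Fin t → Fin n, ∑ j, ∑ c, pc A (ρ j) c (σ i') (σ i) := by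
      unfold CA
      rw [sum_comm]
      exact sum_congr rfl (fun _ _ => sum_comm)
    rw [h1, mul_sum, mul_sum]
    apply sum_congr rfl
    intro i _
    rw [mul_sum, mul_sum]
    apply sum_congr rfl
    intro i' _
    exact avg1 (fun x => ∑ c, pc A x c (σ i') (σ i))
  have hG0 : ∀ x, G x x = 0 := by
    intro x
    simp [hG, pc_cc]
  have h2 := avg2 (s := s) G hG0
  have h3 : ∑ x, ∑ y, G x y = NN A := NN_formCA A
  rw [h3] at h2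
  calc n ^ 3 * ∑ σ : Fin s → Fin n, ∑ ρ : Fin t → Fin n, CA A σ ρ
      = n ^ 2 * ∑ σ : Fin s → Fin n, (n * ∑ ρ : Fin t → Fin n, CA A σ ρ) := by
        rw [← mul_sum]; ring
    _ = n ^ 2 * ∑ σ : Fin s → Fin n, (t * n ^ t * ∑ i, ∑ i', G (σ i) (σ i')) := by
        rw [sum_congr rfl (fun σ _ => hinner σ)]
    _ = t * n ^ t * (n ^ 2 * ∑ σ : Fin s → Fin n, ∑ i, ∑ i', G (σ i) (σ i')) := by
        rw [← mul_sum]; ring
    _ ≤ t * n ^ t * (s ^ 2 * n ^ s * NN A) := Nat.mul_le_mul_left _ h2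
    _ = s ^ 2 * t * n ^ s * n ^ t * NN A := by ring

lemma avgHA : (t + 1) * ∑ σ : Fin s → Fin n, ∑ ρ : Fin t → Fin n, HA A σ ρ ≤
    s ^ 2 * n ^ s * (n ^ (t + 1) + (t + 1) * n ^ t) := by
  have hinner : ∀ σ : Fin s → Fin n, (t + 1) * ∑ ρ : Fin t → Fin n, HA A σ ρ ≤
      s ^ 2 * (n ^ (t + 1) + (t + 1) * n ^ t) := by
    intro σ
    have h1 : ∑ ρ : Fin t → Fin n, HA A σ ρ =
        ∑ i, ∑ i', ∑ ρ : Fin t → Fin n, hitc (Wc A (σ i) (σ i')) ρ := by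
      unfold HA
      rw [sum_comm]
      exact sum_congr rfl (fun _ _ => sum_comm)
    rw [h1, mul_sum]
    calc ∑ i, (t + 1) * ∑ i', ∑ ρ : Fin t → Fin n, hitc (Wc A (σ i) (σ i')) ρ
        = ∑ i : Fin s, ∑ i' : Fin s, (t + 1) * ∑ ρ : Fin t → Fin n, hitc (Wc A (σ i) (σ i')) ρ :=
          sum_congr rfl (fun _ _ => mul_sum _ _ _)
      _ ≤ ∑ _i : Fin s, ∑ _i' : Fin s, (n ^ (t + 1) + (t + 1) * n ^ t) :=
          sum_le_sum (fun i _ => sum_le_sum (fun i' _ => sum_hitc_le _))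
      _ = s ^ 2 * (n ^ (t + 1) + (t + 1) * n ^ t) := by
          simp only [sum_const, card_univ, Fintype.card_fin, smul_eq_mul]
          ring
  rw [mul_sum]
  calc ∑ σ : Fin s → Fin n, (t + 1) * ∑ ρ : Fin t → Fin n, HA A σ ρ
      ≤ ∑ _σ : Fin s → Fin n, s ^ 2 * (n ^ (t + 1) + (t + 1) * n ^ t) :=
        sum_le_sum (fun σ _ => hinner σ)
    _ = s ^ 2 * n ^ s * (n ^ (t + 1) + (t + 1) * n ^ t) := by
        simp only [sum_const, card_univ, Fintype.card_pi, Fintype.card_fin, prod_const,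
          smul_eq_mul]
        ring

lemma avgCB : n * ∑ σ : Fin s → Fin n, CB A σ = s * n ^ s * NN A := by
  have h0 : ∑ σ : Fin s → Fin n, CB A σ =
      ∑ σ : Fin s → Fin n, ∑ i, ∑ a, ∑ b, ∑ c, pc A b a (σ i) c := by
    apply sum_congr rfl
    intro σ _
    unfold CB
    calc ∑ a, ∑ b, ∑ i, ∑ c, pc A b a (σ i) c = ∑ a, ∑ i, ∑ b, ∑ c, pc A b a (σ i) c :=
          sum_congr rfl (fun _ _ => sum_comm)
      _ = ∑ i, ∑ a, ∑ b, ∑ c, pc A b a (σ i) c := sum_comm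
  rw [h0, avg1 (fun κ => ∑ a, ∑ b, ∑ c, pc A b a κ c), NN_formCB]

lemma avgHB : (s + 1) * ∑ σ : Fin s → Fin n, HB A σ ≤
    n ^ 2 * (n ^ (s + 1) + (s + 1) * n ^ s) := by
  have h1 : ∑ σ : Fin s → Fin n, HB A σ = ∑ a, ∑ b, ∑ σ : Fin s → Fin n, hitc (Wr A a b) σ := by
    unfold HB
    rw [sum_comm]
    exact sum_congr rfl (fun _ _ => sum_comm)
  rw [h1, mul_sum]
  calc ∑ a, (s + 1) * ∑ b, ∑ σ : Fin s → Fin n, hitc (Wr A a b) σ
      = ∑ a : Fin n, ∑ b : Fin n, (s + 1) * ∑ σ : Fin s → Fin n, hitc (Wr A a b) σ :=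
        sum_congr rfl (fun _ _ => mul_sum _ _ _)
    _ ≤ ∑ _a : Fin n, ∑ _b : Fin n, (n ^ (s + 1) + (s + 1) * n ^ s) :=
        sum_le_sum (fun a _ => sum_le_sum (fun b _ => sum_hitc_le _))
    _ = n ^ 2 * (n ^ (s + 1) + (s + 1) * n ^ s) := by
        simp only [sum_const, card_univ, Fintype.card_fin, smul_eq_mul]
        ring

end Vale.Agent.Lib.P037
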