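import Mathlib
import Vale.Agent.Lib.P037.Avg

namespace Vale.Agent.Lib.P037

open Finset

lemma free_of_NN_zero {n : ℕ} (A : Fin n → Fin n → Bool) (h : NN A = 0) : Free A := by
  intro r r' c c' hc
  have h1 : 1 ≤ NN A := by
    unfold NN
    refine le_trans ?_ (single_le_sum (f := fun r => ∑ r', ∑ c, ∑ c', pc A r r' c c')
      (fun _ _ => Nat.zero_le _) (mem_univ r))
    refine le_trans ?_ (single_le_sum (f := fun r' => ∑ c, ∑ c', pc A r r' c c')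
      (fun _ _ => Nat.zero_le _) (mem_univ r'))
    refine le_trans ?_ (single_le_sum (f := fun c => ∑ c', pc A r r' c c')
      (fun _ _ => Nat.zero_le _) (mem_univ c))
    refine le_trans ?_ (single_le_sum (f := fun c' => pc A r r' c c')
      (fun _ _ => Nat.zero_le _) (mem_univ c'))
    rw [pc_eq_one A hc]
  omega

/-- Arithmetic of the averages. -/
lemma arith_sum {q n s t Ω0 Ω1 NNv SZ SCA SHA SCB SHB : ℕ} (hq0 : 0 < q) (hn : 0 < n)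
    (hqn : q ^ 12 ≤ n) (hq4 : q ^ 4 ≤ n) (hs : s = q ^ 4) (ht : t = q ^ 16)
    (hN : NNv * q ^ 48 ≤ n ^ 4)
    (hZ : n ^ 4 * SZ ≤ s ^ 2 * t ^ 2 * Ω0 * Ω1 * NNv)
    (hCA : n ^ 3 * SCA ≤ s ^ 2 * t * Ω0 * Ω1 * NNv)
    (hHA : (t + 1) * SHA ≤ s ^ 2 * Ω0 * (Ω1 * n + (t + 1) * Ω1))
    (hCB : n * SCB = s * Ω0 * NNv)
    (hHB : (s + 1) * SHB ≤ n ^ 2 * (Ω0 * n + (s + 1) * Ω0)) :
    n ^ 3 * (q ^ 8 * SZ) + n ^ 2 * (q ^ 4 * SCA + q ^ 4 * SHA) +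
      Ω1 * (q ^ 4 * SCB + q ^ 4 * SHB) ≤ 7 * n ^ 3 * (Ω0 * Ω1) := by
  have c1 : q ^ 8 * SZ ≤ Ω0 * Ω1 := by
    have : n ^ 4 * (q ^ 8 * SZ) ≤ n ^ 4 * (Ω0 * Ω1) := by
      calc n ^ 4 * (q ^ 8 * SZ) = q ^ 8 * (n ^ 4 * SZ) := by ring
        _ ≤ q ^ 8 * (s ^ 2 * t ^ 2 * Ω0 * Ω1 * NNv) := Nat.mul_le_mul_left _ hZ
        _ = (NNv * q ^ 48) * (Ω0 * Ω1) := by rw [hs, ht]; ring
        _ ≤ n ^ 4 * (Ω0 * Ω1) := Nat.mul_le_mul_right _ hN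
    exact Nat.le_of_mul_le_mul_left this (by positivity)
  have c2 : q ^ 4 * SCA ≤ Ω0 * Ω1 * n := by
    have : n ^ 3 * (q ^ 4 * SCA) ≤ n ^ 3 * (Ω0 * Ω1 * n) := by
      calc n ^ 3 * (q ^ 4 * SCA) = q ^ 4 * (n ^ 3 * SCA) := by ring
        _ ≤ q ^ 4 * (s ^ 2 * t * Ω0 * Ω1 * NNv) := Nat.mul_le_mul_left _ hCA
        _ = q ^ 28 * (NNv * (Ω0 * Ω1)) := by rw [hs, ht]; ring
        _ ≤ q ^ 48 * (NNv * (Ω0 * Ω1)) :=
            Nat.mul_le_mul_right _ (Nat.pow_le_pow_right hq0 (by norm_num))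
        _ = (NNv * q ^ 48) * (Ω0 * Ω1) := by ring
        _ ≤ n ^ 4 * (Ω0 * Ω1) := Nat.mul_le_mul_right _ hN
        _ = n ^ 3 * (Ω0 * Ω1 * n) := by ring
    exact Nat.le_of_mul_le_mul_left this (by positivity)
  have c3 : q ^ 4 * SHA ≤ 2 * (Ω0 * Ω1 * n) := by
    have h12 : q ^ 12 ≤ t + 1 := by
      rw [ht]
      have : q ^ 12 ≤ q ^ 16 := Nat.pow_le_pow_right hq0 (by norm_num)
      omega
    have : (t + 1) * (q ^ 4 * SHA) ≤ (t + 1) * (2 * (Ω0 * Ω1 * n)) := by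
      calc (t + 1) * (q ^ 4 * SHA) = q ^ 4 * ((t + 1) * SHA) := by ring
        _ ≤ q ^ 4 * (s ^ 2 * Ω0 * (Ω1 * n + (t + 1) * Ω1)) := Nat.mul_le_mul_left _ hHA
        _ = q ^ 12 * n * (Ω0 * Ω1) + q ^ 12 * (t + 1) * (Ω0 * Ω1) := by rw [hs]; ring
        _ ≤ (t + 1) * n * (Ω0 * Ω1) + n * (t + 1) * (Ω0 * Ω1) := by
            apply Nat.add_le_add
            · exact Nat.mul_le_mul_right _ (Nat.mul_le_mul_right _ h12)
            · exact Nat.mul_le_mul_right _ (Nat.mul_le_mul_right _ hqn)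
        _ = (t + 1) * (2 * (Ω0 * Ω1 * n)) := by ring
    exact Nat.le_of_mul_le_mul_left this (by omega)
  have c4 : q ^ 4 * SCB ≤ Ω0 * n ^ 3 := by
    have : n * (q ^ 4 * SCB) ≤ n * (Ω0 * n ^ 3) := by
      calc n * (q ^ 4 * SCB) = q ^ 4 * (n * SCB) := by ring
        _ = q ^ 4 * (s * Ω0 * NNv) := by rw [hCB]
        _ = q ^ 8 * (NNv * Ω0) := by rw [hs]; ring
        _ ≤ q ^ 48 * (NNv * Ω0) :=
            Nat.mul_le_mul_right _ (Nat.pow_le_pow_right hq0 (by norm_num))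
        _ = (NNv * q ^ 48) * Ω0 := by ring
        _ ≤ n ^ 4 * Ω0 := Nat.mul_le_mul_right _ hN
        _ = n * (Ω0 * n ^ 3) := by ring
    exact Nat.le_of_mul_le_mul_left this hn
  have c5 : q ^ 4 * SHB ≤ 2 * (Ω0 * n ^ 3) := by
    have h4 : q ^ 4 ≤ s + 1 := by omega
    have : (s + 1) * (q ^ 4 * SHB) ≤ (s + 1) * (2 * (Ω0 * n ^ 3)) := by
      calc (s + 1) * (q ^ 4 * SHB) = q ^ 4 * ((s + 1) * SHB) := by ring
        _ ≤ q ^ 4 * (n ^ 2 * (Ω0 * n + (s + 1) * Ω0)) := Nat.mul_le_mul_left _ hHB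
        _ = q ^ 4 * n ^ 3 * Ω0 + q ^ 4 * ((s + 1) * (n ^ 2 * Ω0)) := by ring
        _ ≤ (s + 1) * n ^ 3 * Ω0 + n * ((s + 1) * (n ^ 2 * Ω0)) := by
            apply Nat.add_le_add
            · exact Nat.mul_le_mul_right _ (Nat.mul_le_mul_right _ h4)
            · exact Nat.mul_le_mul_right _ hq4
        _ = (s + 1) * (2 * (Ω0 * n ^ 3)) := by ring
    exact Nat.le_of_mul_le_mul_left this (by omega)
  have h1 : n ^ 3 * (q ^ 8 * SZ) ≤ n ^ 3 * (Ω0 * Ω1) := Nat.mul_le_mul_left _ c1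
  have h2 : n ^ 2 * (q ^ 4 * SCA + q ^ 4 * SHA) ≤ n ^ 2 * (3 * (Ω0 * Ω1 * n)) :=
    Nat.mul_le_mul_left _ (by omega)
  have h3 : Ω1 * (q ^ 4 * SCB + q ^ 4 * SHB) ≤ Ω1 * (3 * (Ω0 * n ^ 3)) :=
    Nat.mul_le_mul_left _ (by omega)
  calc _ ≤ n ^ 3 * (Ω0 * Ω1) + n ^ 2 * (3 * (Ω0 * Ω1 * n)) + Ω1 * (3 * (Ω0 * n ^ 3)) :=
        Nat.add_le_add (Nat.add_le_add h1 h2) h3
    _ = 7 * n ^ 3 * (Ω0 * Ω1) := by ring

/-- Existence of a good sample. -/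
lemma exists_sample {n q : ℕ} (hq0 : 0 < q) (A : Fin n → Fin n → Bool)
    (hN : NN A * q ^ 48 ≤ n ^ 4) (hqn : q ^ 12 ≤ n) :
    ∃ (σ : Fin (q ^ 4) → Fin n) (ρ : Fin (q ^ 16) → Fin n),
      n ^ 3 * (q ^ 8 * ZZ A σ ρ) + n ^ 2 * (q ^ 4 * L1 A σ ρ) + q ^ 4 * L2 A σ ≤ 7 * n ^ 3 := by
  have hn : 0 < n := lt_of_lt_of_le (pow_pos hq0 12) hqn
  have hq4 : q ^ 4 ≤ n := le_trans (Nat.pow_le_pow_right hq0 (by norm_num)) hqn
  obtain ⟨s, hs⟩ : ∃ s, s = q ^ 4 := ⟨_, rfl⟩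
  obtain ⟨t, ht⟩ : ∃ t, t = q ^ 16 := ⟨_, rfl⟩
  rw [← hs, ← ht]
  obtain ⟨Ω0, hΩ0⟩ : ∃ x, x = n ^ s := ⟨_, rfl⟩
  obtain ⟨Ω1, hΩ1⟩ : ∃ x, x = n ^ t := ⟨_, rfl⟩
  have hZ := avgZ (s := s) (t := t) A
  have hCA := avgCA (s := s) (t := t) A
  have hHA := avgHA (s := s) (t := t) A
  have hCB := avgCB (s := s) A
  have hHB := avgHB (s := s) A
  rw [← hΩ0, ← hΩ1] at hZ hCA
  rw [← hΩ0] at hHA hCB
  rw [pow_succ n t, ← hΩ1] at hHA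
  rw [pow_succ n s, ← hΩ0] at hHB
  have harith := arith_sum hq0 hn hqn hq4 hs ht hN hZ hCA hHA hCB hHB
  have hsum : ∑ σ : Fin s → Fin n, ∑ ρ : Fin t → Fin n,
      (n ^ 3 * (q ^ 8 * ZZ A σ ρ) + n ^ 2 * (q ^ 4 * L1 A σ ρ) + q ^ 4 * L2 A σ)
      ≤ 7 * n ^ 3 * (Ω0 * Ω1) := by
    have e : ∑ σ : Fin s → Fin n, ∑ ρ : Fin t → Fin n,
        (n ^ 3 * (q ^ 8 * ZZ A σ ρ) + n ^ 2 * (q ^ 4 * L1 A σ ρ) + q ^ 4 * L2 A σ) =
        n ^ 3 * (q ^ 8 * ∑ σ : Fin s → Fin n, ∑ ρ : Fin t → Fin n, ZZ A σ ρ) +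
        n ^ 2 * (q ^ 4 * (∑ σ : Fin s → Fin n, ∑ ρ : Fin t → Fin n, CA A σ ρ) +
          q ^ 4 * ∑ σ : Fin s → Fin n, ∑ ρ : Fin t → Fin n, HA A σ ρ) +
          Ω1 * (q ^ 4 * (∑ σ : Fin s → Fin n, CB A σ) + q ^ 4 * ∑ σ : Fin s → Fin n, HB A σ) := by
      simp only [L1_eq, L2_eq, sum_add_distrib, mul_add, ← mul_sum, sum_const, card_univ,
        Fintype.card_pi, Fintype.card_fin, prod_const, smul_eq_mul, ← hΩ1]
      ring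
    rw [e]
    exact harith
  have : Nonempty (Fin s → Fin n) := ⟨fun _ => ⟨0, hn⟩⟩
  have : Nonempty (Fin t → Fin n) := ⟨fun _ => ⟨0, hn⟩⟩
  obtain ⟨σ, _, hσ⟩ := exists_le_of_sum_le (s := (univ : Finset (Fin s → Fin n)))
    (f := fun σ => ∑ ρ : Fin t → Fin n,
      (n ^ 3 * (q ^ 8 * ZZ A σ ρ) + n ^ 2 * (q ^ 4 * L1 A σ ρ) + q ^ 4 * L2 A σ))
    (g := fun _ => 7 * n ^ 3 * Ω1) univ_nonempty (by
      rw [sum_const, card_univ, Fintype.card_pi]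
      simp only [Fintype.card_fin, prod_const, card_univ, smul_eq_mul, ← hΩ0]
      calc _ ≤ 7 * n ^ 3 * (Ω0 * Ω1) := hsum
        _ = Ω0 * (7 * n ^ 3 * Ω1) := by ring)
  obtain ⟨ρ, _, hρ⟩ := exists_le_of_sum_le (s := (univ : Finset (Fin t → Fin n)))
    (f := fun ρ => (n ^ 3 * (q ^ 8 * ZZ A σ ρ) + n ^ 2 * (q ^ 4 * L1 A σ ρ) + q ^ 4 * L2 A σ))
    (g := fun _ => 7 * n ^ 3) univ_nonempty (by
      rw [sum_const, card_univ, Fintype.card_pi]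
      simp only [Fintype.card_fin, prod_const, card_univ, smul_eq_mul, ← hΩ1]
      calc _ ≤ 7 * n ^ 3 * Ω1 := hσ
        _ = Ω1 * (7 * n ^ 3) := by ring)
  rw [← hs] at hρ
  exact ⟨σ, ρ, hρ⟩

/-- Final arithmetic. -/
lemma finish_arith {q n x1 x2 D C : ℕ} (hq : 2 ≤ q)
    (hL1 : q ^ 4 * x1 ≤ 7 * n) (hL2 : q ^ 4 * x2 ≤ 7 * n ^ 3)
    (hD : D ^ 2 ≤ 4 * n * x1) (hC : C ^ 2 ≤ 4 * n * (x2 + 2 * n ^ 2 * D)) :
    C * q ≤ 8 * n ^ 2 := by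
  have hD2 : q ^ 2 * D ≤ 6 * n := by
    have : (q ^ 2 * D) ^ 2 ≤ (6 * n) ^ 2 := by
      calc (q ^ 2 * D) ^ 2 = q ^ 4 * D ^ 2 := by ring
        _ ≤ q ^ 4 * (4 * n * x1) := Nat.mul_le_mul_left _ hD
        _ = 4 * n * (q ^ 4 * x1) := by ring
        _ ≤ 4 * n * (7 * n) := Nat.mul_le_mul_left _ hL1
        _ ≤ (6 * n) ^ 2 := by nlinarith
    exact (Nat.pow_le_pow_iff_left (by norm_num)).1 this
  have hq2 : 4 ≤ q ^ 2 := by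
    calc 4 = 2 ^ 2 := by norm_num
      _ ≤ q ^ 2 := Nat.pow_le_pow_left hq 2
  have hfin : (C * q) ^ 2 ≤ (8 * n ^ 2) ^ 2 := by
    have key : q ^ 2 * (C ^ 2 * q ^ 2) ≤ q ^ 2 * (64 * n ^ 4) := by
      calc q ^ 2 * (C ^ 2 * q ^ 2) = q ^ 4 * C ^ 2 := by ring
        _ ≤ q ^ 4 * (4 * n * (x2 + 2 * n ^ 2 * D)) := Nat.mul_le_mul_left _ hC
        _ = 4 * n * (q ^ 4 * x2) + 8 * n ^ 3 * q ^ 2 * (q ^ 2 * D) := by ring
        _ ≤ 4 * n * (7 * n ^ 3) + 8 * n ^ 3 * q ^ 2 * (6 * n) := by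
            apply Nat.add_le_add
            · exact Nat.mul_le_mul_left _ hL2
            · exact Nat.mul_le_mul_left _ hD2
        _ = 28 * n ^ 4 + 48 * q ^ 2 * n ^ 4 := by ring
        _ ≤ 7 * q ^ 2 * n ^ 4 + 48 * q ^ 2 * n ^ 4 := by
            apply Nat.add_le_add_right
            apply Nat.mul_le_mul_right
            omega
        _ ≤ q ^ 2 * (64 * n ^ 4) := by nlinarith [Nat.zero_le (q ^ 2 * n ^ 4)]
    have := Nat.le_of_mul_le_mul_left key (by positivity)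
    calc (C * q) ^ 2 = C ^ 2 * q ^ 2 := by ring
      _ ≤ 64 * n ^ 4 := this
      _ = (8 * n ^ 2) ^ 2 := by ring
  exact (Nat.pow_le_pow_iff_left (by norm_num)).1 hfin

/-- Quantitative core: few copies imply closeness to a free matrix. -/
theorem core {n q : ℕ} (hq : 2 ≤ q) (A : Fin n → Fin n → Bool) (hN : NN A * q ^ 48 ≤ n ^ 4) :
    ∃ B : Fin n → Fin n → Bool, Free B ∧ diffN A B * q ≤ 8 * n ^ 2 := by
  classical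
  by_cases h0 : NN A = 0
  · refine ⟨A, free_of_NN_zero A h0, ?_⟩
    have : diffN A A = 0 := by
      unfold diffN
      simp
    rw [this]
    simp
  have hq0 : 0 < q := by omega
  have hqn : q ^ 12 ≤ n := by
    have h1 : (q ^ 12) ^ 4 ≤ n ^ 4 := by
      calc (q ^ 12) ^ 4 = 1 * q ^ 48 := by ring
        _ ≤ NN A * q ^ 48 := Nat.mul_le_mul_right _ (Nat.one_le_iff_ne_zero.2 h0)
        _ ≤ n ^ 4 := hN
    exact (Nat.pow_le_pow_iff_left (by norm_num)).1 h1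
  have hn : 0 < n := lt_of_lt_of_le (pow_pos hq0 12) hqn
  obtain ⟨σ, ρ, hρ⟩ := exists_sample hq0 A hN hqn
  have hn3 : 0 < n ^ 3 := by positivity
  have hZ0 : ZZ A σ ρ = 0 := by
    by_contra hne
    have h1 : 1 ≤ ZZ A σ ρ := Nat.one_le_iff_ne_zero.2 hne
    have h2 : 256 ≤ q ^ 8 := by
      calc 256 = 2 ^ 8 := by norm_num
        _ ≤ q ^ 8 := Nat.pow_le_pow_left hq 8
    have h3 : n ^ 3 * 256 ≤ n ^ 3 * (q ^ 8 * ZZ A σ ρ) :=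
      Nat.mul_le_mul_left _ (by nlinarith)
    omega
  have hL1 : q ^ 4 * L1 A σ ρ ≤ 7 * n := by
    have : n ^ 2 * (q ^ 4 * L1 A σ ρ) ≤ n ^ 2 * (7 * n) := by
      calc _ ≤ 7 * n ^ 3 := by omega
        _ = n ^ 2 * (7 * n) := by ring
    exact Nat.le_of_mul_le_mul_left this (by positivity)
  have hL2 : q ^ 4 * L2 A σ ≤ 7 * n ^ 3 := by omega
  obtain ⟨B1, hB1, hD⟩ := level1 A σ ρ hZ0
  obtain ⟨B, hB, hC⟩ := level2 A σ (image σ univ) rfl B1 hB1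
  exact ⟨B, hB, finish_arith hq hL1 hL2 hD hC⟩

end Vale.Agent.Lib.P037
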