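import Mathlib

namespace Vale.Agent.Lib.P037

open Finset

/-- The number of ordered copies of the `k × k` binary pattern `H` in the `n × n` binary matrix
`A`: pairs of strictly increasing index maps `p.1` (rows) and `p.2` (columns) with
`A (p.1 i) (p.2 j) = H i j` for all `i j`. -/
def copies {k n : ℕ} (H : Fin k → Fin k → Bool) (A : Fin n → Fin n → Bool) : ℕ :=
  (univ.filter (fun p : (Fin k → Fin n) × (Fin k → Fin n) =>
    StrictMono p.1 ∧ StrictMono p.2 ∧ ∀ i j, A (p.1 i) (p.2 j) = H i j)).card

/-- The number of entries in which two `n × n` binary matrices differ. -/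
def hamming {n : ℕ} (A B : Fin n → Fin n → Bool) : ℕ :=
  (univ.filter (fun p : Fin n × Fin n => A p.1 p.2 ≠ B p.1 p.2)).card

/-- `A` is `ε`-far from `H`-free: every `H`-free matrix differs from `A` in at least `ε n²`
entries. -/
def IsFar {k n : ℕ} (H : Fin k → Fin k → Bool) (A : Fin n → Fin n → Bool) (ε : ℝ) : Prop :=
  ∀ B : Fin n → Fin n → Bool, copies H B = 0 → ε * (n : ℝ) ^ 2 ≤ (hamming A B : ℝ)

/-- The diagonal pattern `[[1,0],[0,1]]`. -/
def diag2 : Fin 2 → Fin 2 → Bool := ![![true, false], ![false, true]]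

/-- The antidiagonal pattern `[[0,1],[1,0]]`. -/
def antidiag2 : Fin 2 → Fin 2 → Bool := ![![false, true], ![true, false]]

end Vale.Agent.Lib.P037
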