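import Mathlib
import Vale.Agent.Lib.P037.Defs
import Vale.Agent.Lib.P037.Core

namespace Vale.Agent.Lib.P037

open Finset

lemma NN_eq_card {n : ℕ} (A : Fin n → Fin n → Bool) [DecidablePred (fun q : Fin n × Fin n × Fin n × Fin n =>
    Cpy A q.1 q.2.1 q.2.2.1 q.2.2.2)] :
    NN A = (univ.filter (fun q : Fin n × Fin n × Fin n × Fin n =>
      Cpy A q.1 q.2.1 q.2.2.1 q.2.2.2)).card := by
  classical
  rw [card_filter]
  unfold NN pc
  simp only [Fintype.sum_prod_type]
  apply sum_congr rfl; intro r _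
  apply sum_congr rfl; intro r' _
  apply sum_congr rfl; intro c _
  apply sum_congr rfl; intro c' _
  congr

lemma NN_le_copies {n : ℕ} (A : Fin n → Fin n → Bool) : NN A ≤ copies diag2 A := by
  classical
  rw [NN_eq_card]
  unfold copies
  apply card_le_card_of_injOn
    (fun q => ((![q.1, q.2.1] : Fin 2 → Fin n), (![q.2.2.1, q.2.2.2] : Fin 2 → Fin n)))
  · rintro ⟨r, r', c, c'⟩ hq
    simp only [mem_coe, mem_filter, mem_univ, true_and] at hq ⊢
    obtain ⟨h1, h2, h3, h4, h5, h6⟩ := hq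
    refine ⟨?_, ?_, ?_⟩
    · rw [Fin.strictMono_iff_lt_succ]
      intro i
      fin_cases i
      simpa using h1
    · rw [Fin.strictMono_iff_lt_succ]
      intro i
      fin_cases i
      simpa using h2
    · intro i j
      fin_cases i <;> fin_cases j <;> simp [diag2, h3, h4, h5, h6]
  · rintro ⟨r, r', c, c'⟩ _ ⟨s, s', d, d'⟩ _ heq
    simp only [Prod.mk.injEq] at heq
    have e1 := congrFun heq.1 0
    have e2 := congrFun heq.1 1
    have e3 := congrFun heq.2 0
    have e4 := congrFun heq.2 1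
    simp at e1 e2 e3 e4
    simp [e1, e2, e3, e4]

lemma copies_eq_zero_of_free {n : ℕ} (B : Fin n → Fin n → Bool) (h : Free B) :
    copies diag2 B = 0 := by
  unfold copies
  rw [card_eq_zero, filter_eq_empty_iff]
  rintro ⟨p1, p2⟩ _ ⟨h1, h2, h3⟩
  simp only at h1 h2 h3
  refine h (p1 0) (p1 1) (p2 0) (p2 1) ⟨h1 (by simp), h2 (by simp), ?_, ?_, ?_, ?_⟩
  · rw [h3]; rfl
  · rw [h3]; rfl
  · rw [h3]; rfl
  · rw [h3]; rfl

lemma hamming_eq_diffN {n : ℕ} (A B : Fin n → Fin n → Bool) : hamming A B = diffN A B := by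
  unfold hamming diffN
  congr

/-- Analytic form of the core theorem. -/
theorem far_core {n : ℕ} (hn : 1 ≤ n) (A : Fin n → Fin n → Bool) {ε : ℝ} (h0 : 0 < ε) (h1 : ε < 1)
    (hfar : ∀ B : Fin n → Fin n → Bool, Free B → ε * (n : ℝ) ^ 2 ≤ (diffN A B : ℝ)) :
    (ε / 10) ^ 48 * (n : ℝ) ^ 4 ≤ (NN A : ℝ) := by
  obtain ⟨q, hq⟩ : ∃ q : ℕ, q = ⌈8 / ε⌉₊ + 1 := ⟨_, rfl⟩
  have hn' : (0 : ℝ) < n := by exact_mod_cast hn
  have h8 : 8 / ε ≤ ⌈8 / ε⌉₊ := Nat.le_ceil _
  have hqr : (q : ℝ) = (⌈8 / ε⌉₊ : ℝ) + 1 := by rw [hq]; push_cast; ring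
  have hq1 : 8 / ε + 1 ≤ (q : ℝ) := by rw [hqr]; linarith
  have h8' : (8 : ℝ) < 8 / ε := by
    rw [lt_div_iff₀ h0]
    nlinarith
  have hq2 : 2 ≤ q := by
    have : (2 : ℝ) ≤ q := by linarith
    exact_mod_cast this
  have hq3 : (q : ℝ) ≤ 10 / ε := by
    have h2 : (⌈8 / ε⌉₊ : ℝ) < 8 / ε + 1 := Nat.ceil_lt_add_one (by positivity)
    rw [hqr]
    have h3 : (2 : ℝ) ≤ 2 / ε := by
      rw [le_div_iff₀ h0]
      nlinarith
    have h4 : 10 / ε = 8 / ε + 2 / ε := by ring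
    rw [h4]
    linarith
  have hqpos : (0 : ℝ) < q := by linarith
  have hmain : n ^ 4 < NN A * q ^ 48 := by
    by_contra hcon
    push Not at hcon
    obtain ⟨B, hB, hd⟩ := core hq2 A hcon
    have h2 := hfar B hB
    have h3 : (diffN A B : ℝ) * q ≤ 8 * (n : ℝ) ^ 2 := by exact_mod_cast hd
    have h4 : ε * (n : ℝ) ^ 2 * q ≤ 8 * (n : ℝ) ^ 2 :=
      le_trans (mul_le_mul_of_nonneg_right h2 hqpos.le) h3
    have h5 : ε * q ≤ 8 := by
      have hn2 : (0 : ℝ) < (n : ℝ) ^ 2 := by positivity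
      nlinarith
    have h6 : 8 / ε * ε = 8 := by field_simp
    nlinarith
  have hmain' : (n : ℝ) ^ 4 ≤ (NN A : ℝ) * (q : ℝ) ^ 48 := by
    exact_mod_cast hmain.le
  have hε : ε / 10 ≤ 1 / q := by
    rw [le_div_iff₀ hqpos]
    have h6 : 10 / ε * ε = 10 := by field_simp
    nlinarith
  have hε0 : 0 ≤ ε / 10 := by positivity
  have hp : (ε / 10) ^ 48 * (q : ℝ) ^ 48 ≤ 1 := by
    have : (ε / 10) ^ 48 ≤ (1 / (q : ℝ)) ^ 48 := pow_le_pow_left₀ hε0 hε 48
    calc (ε / 10) ^ 48 * (q : ℝ) ^ 48 ≤ (1 / (q : ℝ)) ^ 48 * (q : ℝ) ^ 48 :=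
          mul_le_mul_of_nonneg_right this (by positivity)
      _ = 1 := by
          rw [← mul_pow, one_div, inv_mul_cancel₀ hqpos.ne', one_pow]
  have hN0 : (0 : ℝ) ≤ NN A := by positivity
  calc (ε / 10) ^ 48 * (n : ℝ) ^ 4 ≤ (ε / 10) ^ 48 * ((NN A : ℝ) * (q : ℝ) ^ 48) :=
        mul_le_mul_of_nonneg_left hmain' (by positivity)
    _ = ((ε / 10) ^ 48 * (q : ℝ) ^ 48) * (NN A : ℝ) := by ring
    _ ≤ 1 * (NN A : ℝ) := mul_le_mul_of_nonneg_right hp hN0
    _ = (NN A : ℝ) := one_mul _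

/-- Polynomial removal for the diagonal pattern. -/
theorem removal_diag {n : ℕ} (hn : 1 ≤ n) (A : Fin n → Fin n → Bool) {ε : ℝ} (h0 : 0 < ε)
    (h1 : ε < 1) (hfar : IsFar diag2 A ε) :
    (ε / 10) ^ 48 * (n : ℝ) ^ 4 ≤ (copies diag2 A : ℝ) := by
  have h2 := far_core hn A h0 h1 (fun B hB => by
    have := hfar B (copies_eq_zero_of_free B hB)
    rwa [hamming_eq_diffN] at this)
  have h3 : (NN A : ℝ) ≤ copies diag2 A := by exact_mod_cast NN_le_copies A
  linarith

/-- Reversing the rows exchanges the diagonal and the antidiagonal pattern. -/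
def revRows {n : ℕ} (A : Fin n → Fin n → Bool) : Fin n → Fin n → Bool :=
  fun r c => A (Fin.rev r) c

lemma revRows_revRows {n : ℕ} (A : Fin n → Fin n → Bool) : revRows (revRows A) = A := by
  funext r c
  simp [revRows]

lemma hamming_revRows {n : ℕ} (A B : Fin n → Fin n → Bool) :
    hamming (revRows A) (revRows B) = hamming A B := by
  unfold hamming
  apply card_bij (fun p _ => (Fin.rev p.1, p.2))
  · rintro ⟨a, b⟩ hp
    exact mem_filter.2 ⟨mem_univ _, (mem_filter.1 hp).2⟩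
  · rintro ⟨a, b⟩ _ ⟨c, d⟩ _ h
    simpa using h
  · rintro ⟨a, b⟩ hp
    refine ⟨(Fin.rev a, b), ?_, by simp⟩
    refine mem_filter.2 ⟨mem_univ _, ?_⟩
    simp only [revRows, Fin.rev_rev]
    exact (mem_filter.1 hp).2

lemma copies_revRows_le {k n : ℕ} {H1 H2 : Fin k → Fin k → Bool}
    (hH : ∀ i j, H2 i j = H1 (Fin.rev i) j) (A : Fin n → Fin n → Bool) :
    copies H1 (revRows A) ≤ copies H2 A := by
  unfold copies
  apply card_le_card_of_injOn
    (fun p => ((fun i => Fin.rev (p.1 (Fin.rev i)) : Fin k → Fin n), p.2))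
  · rintro ⟨p1, p2⟩ hp
    simp only [mem_coe, mem_filter, mem_univ, true_and] at hp ⊢
    obtain ⟨h1, h2, h3⟩ := hp
    refine ⟨?_, h2, ?_⟩
    · intro i j hij
      apply Fin.rev_lt_rev.2
      apply h1
      exact Fin.rev_lt_rev.2 hij
    · intro i j
      have := h3 (Fin.rev i) j
      simp only [revRows] at this
      rw [this, hH]
  · rintro ⟨p1, p2⟩ _ ⟨q1, q2⟩ _ h
    simp only [Prod.mk.injEq] at h
    obtain ⟨h1, h2⟩ := h
    subst h2
    congr 1
    funext i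
    have := congrFun h1 (Fin.rev i)
    simpa using this

lemma antidiag_eq (i j : Fin 2) : antidiag2 i j = diag2 (Fin.rev i) j := by
  fin_cases i <;> fin_cases j <;> rfl

lemma diag_eq (i j : Fin 2) : diag2 i j = antidiag2 (Fin.rev i) j := by
  fin_cases i <;> fin_cases j <;> rfl

/-- Polynomial removal for the antidiagonal pattern. -/
theorem removal_antidiag {n : ℕ} (hn : 1 ≤ n) (A : Fin n → Fin n → Bool) {ε : ℝ} (h0 : 0 < ε)
    (h1 : ε < 1) (hfar : IsFar antidiag2 A ε) :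
    (ε / 10) ^ 48 * (n : ℝ) ^ 4 ≤ (copies antidiag2 A : ℝ) := by
  have hfar' : IsFar diag2 (revRows A) ε := by
    intro B hB
    have h2 : copies antidiag2 (revRows B) = 0 := by
      have := copies_revRows_le diag_eq (revRows B)
      have h3 : copies antidiag2 (revRows B) ≤ copies diag2 B := by
        have := copies_revRows_le (H1 := antidiag2) (H2 := diag2) diag_eq B
        exact this
      omega
    have h4 := hfar _ h2
    have h5 : hamming A (revRows B) = hamming (revRows A) B := by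
      rw [← hamming_revRows A (revRows B), revRows_revRows]
    rwa [h5] at h4
  have h2 := removal_diag hn (revRows A) h0 h1 hfar'
  have h3 : (copies diag2 (revRows A) : ℝ) ≤ copies antidiag2 A := by
    exact_mod_cast copies_revRows_le antidiag_eq A
  linarith

end Vale.Agent.Lib.P037
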