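import Mathlib
import Vale.Agent.Lib.P037.Defs
import Vale.Agent.Lib.P037.Thresh

namespace Vale.Agent.Lib.P037

open Finset

/-- The pattern whose first row is constant `a` and whose second row is constant `b`. -/
def rc (a b : Bool) : Fin 2 → Fin 2 → Bool := ![![a, a], ![b, b]]

/-- Pairs of increasing indices. -/
def Pr (n : ℕ) : Finset (Fin n × Fin n) := univ.filter (fun p => p.1 < p.2)

lemma card_Pr_le (n : ℕ) : (Pr n).card ≤ n ^ 2 := by
  calc (Pr n).card ≤ (univ : Finset (Fin n × Fin n)).card := card_le_card (filter_subset _ _)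
    _ = n ^ 2 := by simp [sq]

/-- Ordered pairs in a finite subset of a linear order. -/
lemma card_sq_eq {α : Type*} [LinearOrder α] (S : Finset α) :
    S.card ^ 2 = 2 * ((S ×ˢ S).filter (fun p => p.1 < p.2)).card + S.card := by
  classical
  have h1 : S.offDiag.card = S.card * S.card - S.card := offDiag_card S
  have hle : S.card ≤ S.card * S.card := Nat.le_mul_self _
  have h2 : S.offDiag = (S ×ˢ S).filter (fun p => p.1 < p.2) ∪
      (S ×ˢ S).filter (fun p => p.2 < p.1) := by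
    ext ⟨x, y⟩
    simp only [mem_offDiag, mem_union, mem_filter, mem_product]
    constructor
    · rintro ⟨hx, hy, hne⟩
      rcases lt_or_gt_of_ne hne with h | h
      · exact Or.inl ⟨⟨hx, hy⟩, h⟩
      · exact Or.inr ⟨⟨hx, hy⟩, h⟩
    · rintro (⟨⟨hx, hy⟩, h⟩ | ⟨⟨hx, hy⟩, h⟩)
      · exact ⟨hx, hy, h.ne⟩
      · exact ⟨hx, hy, h.ne'⟩
  have h3 : Disjoint ((S ×ˢ S).filter (fun p => p.1 < p.2))
      ((S ×ˢ S).filter (fun p => p.2 < p.1)) := by
    rw [disjoint_left]
    rintro ⟨x, y⟩ h4 h5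
    simp only [mem_filter] at h4 h5
    exact absurd h4.2 (not_lt_of_gt h5.2)
  have h4 : ((S ×ˢ S).filter (fun p => p.2 < p.1)).card =
      ((S ×ˢ S).filter (fun p => p.1 < p.2)).card := by
    apply card_bij (fun p _ => (p.2, p.1))
    · rintro ⟨x, y⟩ h
      simp only [mem_filter, mem_product] at h ⊢
      exact ⟨⟨h.1.2, h.1.1⟩, h.2⟩
    · rintro ⟨x, y⟩ _ ⟨u, v⟩ _ h
      simp only [Prod.mk.injEq] at h ⊢
      exact ⟨h.2, h.1⟩
    · rintro ⟨x, y⟩ h
      refine ⟨(y, x), ?_, rfl⟩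
      simp only [mem_filter, mem_product] at h ⊢
      exact ⟨⟨h.1.2, h.1.1⟩, h.2⟩
  rw [h2, card_union_of_disjoint h3, h4] at h1
  rw [sq]
  omega

variable {n : ℕ} (A : Fin n → Fin n → Bool) (a b : Bool)

/-- The columns realising `(a, b)` in the pair of rows `p`. -/
def xc (p : Fin n × Fin n) : Finset (Fin n) := univ.filter (fun c => A p.1 c = a ∧ A p.2 c = b)

/-- Total number of realisations over all pairs of rows. -/
def II : ℕ := ∑ p ∈ Pr n, (xc A a b p).card

/-- Number of copies of the pattern, written through pairs of rows. -/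
def NR : ℕ := ∑ p ∈ Pr n, (((xc A a b p) ×ˢ (xc A a b p)).filter (fun q => q.1 < q.2)).card

lemma NR_le_copies : NR A a b ≤ copies (rc a b) A := by
  classical
  unfold NR
  rw [← card_sigma]
  unfold copies
  apply card_le_card_of_injOn
    (fun q => ((![q.1.1, q.1.2] : Fin 2 → Fin n), (![q.2.1, q.2.2] : Fin 2 → Fin n)))
  · rintro ⟨⟨r, r'⟩, ⟨c, c'⟩⟩ hq
    simp only [mem_coe, mem_sigma, mem_filter, mem_product, xc, Pr, mem_univ, true_and] at hq ⊢
    obtain ⟨h1, ⟨⟨⟨h3, h4⟩, h5, h6⟩, h2⟩⟩ := hq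
    refine ⟨?_, ?_, ?_⟩
    · rw [Fin.strictMono_iff_lt_succ]
      intro i
      fin_cases i
      simpa using h1
    · rw [Fin.strictMono_iff_lt_succ]
      intro i
      fin_cases i
      simpa using h2
    · intro i j
      fin_cases i <;> fin_cases j <;> simp [rc, h3, h4, h5, h6]
  · rintro ⟨⟨r, r'⟩, ⟨c, c'⟩⟩ _ ⟨⟨s, s'⟩, ⟨d, d'⟩⟩ _ heq
    simp only [Prod.mk.injEq] at heq
    have e1 := congrFun heq.1 0
    have e2 := congrFun heq.1 1
    have e3 := congrFun heq.2 0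
    have e4 := congrFun heq.2 1
    simp at e1 e2 e3 e4
    subst e1 e2 e3 e4
    rfl

lemma II_sq_le : II A a b ^ 2 ≤ n ^ 2 * (2 * NR A a b + II A a b) := by
  unfold II NR
  have h1 : (∑ p ∈ Pr n, (xc A a b p).card) ^ 2 ≤
      (Pr n).card * ∑ p ∈ Pr n, (xc A a b p).card ^ 2 := sq_sum_le_card_mul_sum_sq
  have h2 : ∑ p ∈ Pr n, (xc A a b p).card ^ 2 =
      2 * (∑ p ∈ Pr n, (((xc A a b p) ×ˢ (xc A a b p)).filter (fun q => q.1 < q.2)).card) +
        ∑ p ∈ Pr n, (xc A a b p).card := by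
    rw [mul_sum, ← sum_add_distrib]
    exact sum_congr rfl (fun p _ => card_sq_eq _)
  rw [h2] at h1
  exact h1.trans (Nat.mul_le_mul_right _ (card_Pr_le n))

/-- The same total, counted column by column. -/
lemma II_eq_sum_col : II A a b = ∑ c, ((Pr n).filter (fun p => A p.1 c = a ∧ A p.2 c = b)).card := by
  unfold II xc
  simp only [card_filter]
  rw [sum_comm]

lemma hamming_eq_sum_col (B : Fin n → Fin n → Bool) :
    hamming A B = ∑ c, (univ.filter (fun r => A r c ≠ B r c)).card := by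
  unfold hamming
  simp only [card_filter]
  rw [Fintype.sum_prod_type_right]

/-- Sorting every column into `0 … 0 1 … 1` costs little when there are few inversions. -/
lemma exists_sorted : ∃ B : Fin n → Fin n → Bool, (∀ r r' c, r < r' → B r c = true → B r' c = true) ∧
    hamming A B ^ 2 ≤ 4 * n * II A true false := by
  classical
  have hth := fun c : Fin n =>
    threshold (X := Fin n) (fun r => r.val) Fin.val_injective (fun r => A r c)
  choose t ht using hth
  refine ⟨fun r c => decide (t c ≤ r.val), ?_, ?_⟩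
  · intro r r' c hrr' h
    simp only [decide_eq_true_eq] at h ⊢
    have : r.val < r'.val := hrr'
    omega
  · rw [hamming_eq_sum_col]
    have h1 : (∑ c, (univ.filter (fun r => A r c ≠ decide (t c ≤ r.val))).card) ^ 2 ≤
        (univ : Finset (Fin n)).card * ∑ c, (univ.filter (fun r => A r c ≠ decide (t c ≤ r.val))).card ^ 2 :=
      sq_sum_le_card_mul_sum_sq
    rw [card_univ, Fintype.card_fin] at h1
    have h2 : ∑ c, (univ.filter (fun r => A r c ≠ decide (t c ≤ r.val))).card ^ 2 ≤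
        4 * II A true false := by
      rw [II_eq_sum_col, mul_sum]
      apply sum_le_sum
      intro c _
      have h3 := ht c
      have h4 : (univ.filter (fun r => A r c ≠ decide (t c ≤ r.val))) =
          (univ.filter (fun w => decide (t c ≤ w.val) ≠ A w c)) := by
        ext r
        simp only [mem_filter, mem_univ, true_and, ne_comm]
      have h5 : (univ.filter (fun p : Fin n × Fin n => p.1.val < p.2.val ∧ A p.1 c = true ∧ A p.2 c = false)) =
          (Pr n).filter (fun p => A p.1 c = true ∧ A p.2 c = false) := by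
        ext p
        simp only [Pr, mem_filter, mem_univ, true_and, Fin.lt_def]
      rw [h4]
      rw [h5] at h3
      exact h3
    calc _ ≤ n * ∑ c, (univ.filter (fun r => A r c ≠ decide (t c ≤ r.val))).card ^ 2 := h1
      _ ≤ n * (4 * II A true false) := Nat.mul_le_mul_left _ h2
      _ = 4 * n * II A true false := by ring

/-- Counting zeros: `Z ^ 2 ≤ n (2 I + Z)`. -/
lemma zeros_sq_le : (hamming A (fun _ _ => true)) ^ 2 ≤
    n * (2 * II A false false + hamming A (fun _ _ => true)) := by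
  classical
  rw [hamming_eq_sum_col, II_eq_sum_col]
  have h1 : (∑ c, (univ.filter (fun r => A r c ≠ true)).card) ^ 2 ≤
      (univ : Finset (Fin n)).card * ∑ c, (univ.filter (fun r => A r c ≠ true)).card ^ 2 :=
    sq_sum_le_card_mul_sum_sq
  rw [card_univ, Fintype.card_fin] at h1
  refine h1.trans (Nat.mul_le_mul_left _ (le_of_eq ?_))
  rw [mul_sum, ← sum_add_distrib]
  apply sum_congr rfl
  intro c _
  rw [card_sq_eq (univ.filter (fun r => A r c ≠ true))]
  congr 2
  apply card_bij (fun p _ => p)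
  · rintro ⟨x, y⟩ h
    simp only [mem_filter, mem_product, mem_univ, true_and] at h
    simp only [Pr, mem_filter, mem_univ, true_and]
    simp only [ne_eq, Bool.not_eq_true] at h
    exact ⟨h.2, h.1.1, h.1.2⟩
  · intro x _ y _ h
    exact h
  · rintro ⟨x, y⟩ h
    refine ⟨(x, y), ?_, rfl⟩
    simp only [Pr, mem_filter, mem_univ, true_and] at h
    simp only [mem_filter, mem_product, mem_univ, true_and]
    simp only [ne_eq, Bool.not_eq_true]
    exact ⟨h.2, h.1⟩

lemma copies_rc_eq_zero_of_sorted {B : Fin n → Fin n → Bool}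
    (hB : ∀ r r' c, r < r' → B r c = true → B r' c = true) : copies (rc true false) B = 0 := by
  unfold copies
  rw [card_eq_zero, filter_eq_empty_iff]
  rintro ⟨p1, p2⟩ _ ⟨h1, h2, h3⟩
  simp only at h1 h2 h3
  have h4 := h3 0 0
  have h5 := h3 1 0
  have h6 : B (p1 0) (p2 0) = true := by rw [h4]; rfl
  have h7 : B (p1 1) (p2 0) = false := by rw [h5]; rfl
  have h8 := hB (p1 0) (p1 1) (p2 0) (h1 (by simp)) h6
  rw [h7] at h8
  exact Bool.noConfusion h8

lemma copies_rc_ones : copies (rc false false) (fun _ _ : Fin n => true) = 0 := by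
  unfold copies
  rw [card_eq_zero, filter_eq_empty_iff]
  rintro ⟨p1, p2⟩ _ ⟨h1, h2, h3⟩
  simp only at h1 h2 h3
  have h4 := h3 0 0
  simp [rc] at h4

/-- Final arithmetic. -/
lemma finish {n N I : ℕ} {ε : ℝ} (hn : 1 ≤ n) (h0 : 0 < ε) (h1 : ε < 1)
    (hCS : I ^ 2 ≤ n ^ 2 * (2 * N + I)) (hN1 : 1 ≤ N)
    (hI : 8 ≤ ε ^ 2 * n → ε ^ 2 * (n : ℝ) ^ 3 / 4 ≤ I) :
    (ε / 100) ^ 48 * (n : ℝ) ^ 4 ≤ (N : ℝ) := by
  have hn' : (1 : ℝ) ≤ n := by exact_mod_cast hn
  have hn0 : (0 : ℝ) < n := by linarith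
  have hN1' : (1 : ℝ) ≤ N := by exact_mod_cast hN1
  by_cases h8 : 8 ≤ ε ^ 2 * n
  · have hI' := hI h8
    have hCS' : (I : ℝ) ^ 2 ≤ (n : ℝ) ^ 2 * (2 * N + I) := by exact_mod_cast hCS
    have hn2 : (0 : ℝ) < (n : ℝ) ^ 2 := by positivity
    have hI2 : 2 * (n : ℝ) ^ 2 ≤ I := by
      have : ε ^ 2 * (n : ℝ) ^ 3 / 4 = (ε ^ 2 * n) * (n : ℝ) ^ 2 / 4 := by ring
      rw [this] at hI'
      nlinarith
    -- `I ^ 2 ≤ 4 n ^ 2 N`
    have h3 : (I : ℝ) ^ 2 ≤ 4 * (n : ℝ) ^ 2 * N := by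
      have h4 : (n : ℝ) ^ 2 * (I : ℝ) ≤ (I : ℝ) ^ 2 / 2 := by
        have hI0 : (0 : ℝ) ≤ I := by positivity
        nlinarith
      nlinarith
    have hI0 : 0 ≤ ε ^ 2 * (n : ℝ) ^ 3 / 4 := by positivity
    have h4 : (ε ^ 2 * (n : ℝ) ^ 3 / 4) ^ 2 ≤ (I : ℝ) ^ 2 := pow_le_pow_left₀ hI0 hI' 2
    have h5 : ε ^ 4 * (n : ℝ) ^ 4 / 64 ≤ N := by
      have h6 : (n : ℝ) ^ 2 * (ε ^ 4 * (n : ℝ) ^ 4 / 64) ≤ (n : ℝ) ^ 2 * N := by
        have h7 : (ε ^ 2 * (n : ℝ) ^ 3 / 4) ^ 2 = 4 * ((n : ℝ) ^ 2 * (ε ^ 4 * (n : ℝ) ^ 4 / 64)) := by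
          ring
        nlinarith
      exact le_of_mul_le_mul_left h6 hn2
    have h6 : (ε / 100) ^ 48 ≤ ε ^ 4 / 64 := by
      have h7 : (ε / 100) ^ 48 ≤ (ε / 100) ^ 4 :=
        pow_le_pow_of_le_one (by positivity) (by linarith [div_le_one_of_le₀ (by linarith : ε ≤ 100) (by norm_num : (0:ℝ) ≤ 100)]) (by norm_num)
      have h8' : (ε / 100) ^ 4 ≤ ε ^ 4 / 64 := by
        rw [div_pow]
        have : (0 : ℝ) ≤ ε ^ 4 := by positivity
        apply div_le_div_of_nonneg_left this (by norm_num) (by norm_num)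
      linarith
    have hn4 : (0 : ℝ) ≤ (n : ℝ) ^ 4 := by positivity
    calc (ε / 100) ^ 48 * (n : ℝ) ^ 4 ≤ ε ^ 4 / 64 * (n : ℝ) ^ 4 :=
          mul_le_mul_of_nonneg_right h6 hn4
      _ = ε ^ 4 * (n : ℝ) ^ 4 / 64 := by ring
      _ ≤ N := h5
  · push Not at h8
    have h2 : (ε ^ 2 * (n : ℝ)) ^ 4 ≤ 8 ^ 4 := pow_le_pow_left₀ (by positivity) h8.le 4
    have h3 : ε ^ 40 ≤ 1 := pow_le_one₀ h0.le h1.le
    have h4 : (ε / 100) ^ 48 * (n : ℝ) ^ 4 = ε ^ 40 * (ε ^ 2 * (n : ℝ)) ^ 4 / 100 ^ 48 := by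
      rw [div_pow]; ring
    rw [h4]
    have h5 : ε ^ 40 * (ε ^ 2 * (n : ℝ)) ^ 4 ≤ 1 * 8 ^ 4 :=
      mul_le_mul h3 h2 (by positivity) (by norm_num)
    have h6 : ε ^ 40 * (ε ^ 2 * (n : ℝ)) ^ 4 / 100 ^ 48 ≤ 1 := by
      rw [div_le_one (by positivity)]
      refine h5.trans ?_
      norm_num
    linarith

/-- Far matrices contain a copy. -/
lemma one_le_copies_of_far {H : Fin 2 → Fin 2 → Bool} {A : Fin n → Fin n → Bool} {ε : ℝ} (h0 : 0 < ε)
    (hn : 1 ≤ n) (hfar : IsFar H A ε) : 1 ≤ copies H A := by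
  by_contra hcon
  have h2 : copies H A = 0 := by omega
  have h3 := hfar A h2
  have h4 : hamming A A = 0 := by simp [hamming]
  rw [h4] at h3
  have hn' : (0 : ℝ) < n := by exact_mod_cast hn
  have : 0 < ε * (n : ℝ) ^ 2 := by positivity
  simp at h3
  linarith

/-- Removal for the pattern `[[1,1],[0,0]]`. -/
theorem removal_R (hn : 1 ≤ n) {ε : ℝ} (h0 : 0 < ε) (h1 : ε < 1) (hfar : IsFar (rc true false) A ε) :
    (ε / 100) ^ 48 * (n : ℝ) ^ 4 ≤ (copies (rc true false) A : ℝ) := by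
  have hn' : (0 : ℝ) < n := by exact_mod_cast hn
  apply finish (I := II A true false) hn h0 h1
  · refine (II_sq_le A true false).trans (Nat.mul_le_mul_left _ ?_)
    have := NR_le_copies A true false
    omega
  · exact one_le_copies_of_far h0 hn hfar
  · intro _
    obtain ⟨B, hB, hd⟩ := exists_sorted A
    have h2 := hfar B (copies_rc_eq_zero_of_sorted hB)
    have h3 : (hamming A B : ℝ) ^ 2 ≤ 4 * n * II A true false := by exact_mod_cast hd
    have h4 : (ε * (n : ℝ) ^ 2) ^ 2 ≤ (hamming A B : ℝ) ^ 2 := pow_le_pow_left₀ (by positivity) h2 2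
    have h5 : (n : ℝ) * (ε ^ 2 * (n : ℝ) ^ 3 / 4) ≤ n * (II A true false : ℝ) := by
      nlinarith
    exact le_of_mul_le_mul_left h5 hn'

/-- Removal for the pattern `[[0,0],[0,0]]`. -/
theorem removal_O (hn : 1 ≤ n) {ε : ℝ} (h0 : 0 < ε) (h1 : ε < 1) (hfar : IsFar (rc false false) A ε) :
    (ε / 100) ^ 48 * (n : ℝ) ^ 4 ≤ (copies (rc false false) A : ℝ) := by
  have hn' : (0 : ℝ) < n := by exact_mod_cast hn
  apply finish (I := II A false false) hn h0 h1
  · refine (II_sq_le A false false).trans (Nat.mul_le_mul_left _ ?_)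
    have := NR_le_copies A false false
    omega
  · exact one_le_copies_of_far h0 hn hfar
  · intro h8
    have h2 := hfar _ (copies_rc_ones (n := n))
    have h3 : (hamming A (fun _ _ => true) : ℝ) ^ 2 ≤
        n * (2 * II A false false + hamming A (fun _ _ => true)) := by
      exact_mod_cast zeros_sq_le A
    set Z : ℝ := (hamming A (fun _ _ => true) : ℝ) with hZ
    set J : ℝ := (II A false false : ℝ) with hJ
    -- `ε n ≥ 2`, so `Z ≥ 2 n`
    have h4 : 2 * (n : ℝ) ≤ Z := by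
      have h5 : ε ^ 2 * n ≤ ε * n := by
        have : ε ^ 2 ≤ ε := by nlinarith
        exact mul_le_mul_of_nonneg_right this hn'.le
      have h6 : 2 ≤ ε * n := by linarith
      nlinarith
    have hZ0 : 0 ≤ Z := by linarith
    have h5 : Z ^ 2 ≤ 4 * n * J := by nlinarith
    have h6 : (ε * (n : ℝ) ^ 2) ^ 2 ≤ Z ^ 2 := pow_le_pow_left₀ (by positivity) h2 2
    have h7 : (n : ℝ) * (ε ^ 2 * (n : ℝ) ^ 3 / 4) ≤ n * J := by
      nlinarith
    exact le_of_mul_le_mul_left h7 hn'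

end Vale.Agent.Lib.P037
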