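import Mathlib
import Vale.Agent.Lib.P037.Sample

/-!
The pattern with rows `0 0` and `1 0`: a copy is `a < r`, `c < m` with `A a c = 0`, `A a m = 0`,
`A r c = 1`, `A r m = 0`.  Deterministic part of the proof.
-/

namespace Vale.Agent.Lib.P037

open Finset

open Classical

noncomputable section

variable {n : ℕ} (A : Fin n → Fin n → Bool)

/-- A copy of the pattern. -/
def CpT (a r c m : Fin n) : Prop :=
  a < r ∧ c < m ∧ A a c = false ∧ A a m = false ∧ A r c = true ∧ A r m = false

/-- Indicator of a copy. -/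
def pt (a r c m : Fin n) : ℕ := if CpT A a r c m then 1 else 0

/-- Copies with top row `a` and bottom row `r`. -/
def NRow (a r : Fin n) : ℕ := ∑ c, ∑ m, pt A a r c m

/-- All copies. -/
def NT : ℕ := ∑ a, ∑ r, NRow A a r

/-- Common zeros of two rows. -/
def zc (a b : Fin n) : Finset (Fin n) := univ.filter (fun c => A a c = false ∧ A b c = false)

/-- Common zeros strictly after `x`. -/
def up (a b x : Fin n) : ℕ := ((zc A a b).filter (fun y => x < y)).card

lemma up_mono (a b : Fin n) {x y : Fin n} (h : x ≤ y) : up A a b y ≤ up A a b x := by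
  unfold up
  apply card_le_card
  intro z hz
  simp only [mem_filter] at hz ⊢
  exact ⟨hz.1, lt_of_le_of_lt h hz.2⟩

/-- Columns with `0` in `a`, `1` in `b` and at least `J` common zeros after them. -/
def Miss (a b : Fin n) (J : ℕ) : Finset (Fin n) :=
  univ.filter (fun c => A a c = false ∧ A b c = true ∧ J ≤ up A a b c)

lemma pt_eq_one {a r c m : Fin n} (h : CpT A a r c m) : pt A a r c m = 1 := by
  simp [pt, h]

lemma card_Miss_le {a b : Fin n} (hab : a < b) (J : ℕ) : J * (Miss A a b J).card ≤ NRow A a b := by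
  unfold NRow
  calc J * (Miss A a b J).card = ∑ _c ∈ Miss A a b J, J := by simp [mul_comm]
    _ ≤ ∑ c ∈ Miss A a b J, ∑ m, pt A a b c m := by
        apply sum_le_sum
        intro c hc
        simp only [Miss, mem_filter, mem_univ, true_and] at hc
        obtain ⟨h1, h2, h3⟩ := hc
        calc J ≤ up A a b c := h3
          _ = ∑ _m ∈ (zc A a b).filter (fun y => c < y), 1 := by simp [up]
          _ = ∑ m ∈ (zc A a b).filter (fun y => c < y), pt A a b c m := by
              apply sum_congr rfl
              intro m hm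
              simp only [zc, mem_filter, mem_univ, true_and] at hm
              rw [pt_eq_one]
              exact ⟨hab, hm.2, h1, hm.1.1, h2, hm.1.2⟩
          _ ≤ ∑ m, pt A a b c m :=
              sum_le_sum_of_subset_of_nonneg (subset_univ _) (fun _ _ _ => Nat.zero_le _)
    _ ≤ ∑ c, ∑ m, pt A a b c m :=
        sum_le_sum_of_subset_of_nonneg (subset_univ _) (fun _ _ _ => Nat.zero_le _)

/-- The rank of `x` in `X` counted from the top. -/
def rk (X : Finset (Fin n)) (x : Fin n) : ℕ := (X.filter (fun y => x < y)).card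

lemma rk_lt {X : Finset (Fin n)} {x y : Fin n} (hy : y ∈ X) (h : x < y) : rk X y < rk X x := by
  unfold rk
  apply card_lt_card
  rw [ssubset_iff]
  refine ⟨y, by simp, ?_⟩
  intro z hz
  simp only [mem_insert, mem_filter] at hz ⊢
  rcases hz with rfl | hz
  · exact ⟨hy, h⟩
  · exact ⟨hz.1, h.trans hz.2⟩

lemma rk_injOn (X : Finset (Fin n)) : Set.InjOn (rk X) X := by
  intro x hx y hy hxy
  by_contra hne
  rcases lt_or_gt_of_ne hne with h | h
  · exact absurd hxy (rk_lt hy h).ne'
  · exact absurd hxy (rk_lt hx h).ne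

lemma rk_lt_card {X : Finset (Fin n)} {x : Fin n} (hx : x ∈ X) : rk X x < X.card := by
  unfold rk
  apply card_lt_card
  rw [ssubset_iff]
  refine ⟨x, by simp, ?_⟩
  intro z hz
  simp only [mem_insert, mem_filter] at hz
  rcases hz with rfl | hz
  · exact hx
  · exact hz.1

/-- At most `J` elements have fewer than `J` elements above them. -/
lemma card_top_le (X : Finset (Fin n)) (J : ℕ) : (X.filter (fun x => rk X x < J)).card ≤ J := by
  have h1 : ((X.filter (fun x => rk X x < J)).image (rk X)).card =
      (X.filter (fun x => rk X x < J)).card :=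
    card_image_of_injOn (fun x hx y hy h => rk_injOn X (mem_filter.1 hx).1 (mem_filter.1 hy).1 h)
  rw [← h1]
  calc ((X.filter (fun x => rk X x < J)).image (rk X)).card ≤ (range J).card := by
        apply card_le_card
        intro v hv
        obtain ⟨x, hx, rfl⟩ := mem_image.1 hv
        exact mem_range.2 (mem_filter.1 hx).2
    _ = J := card_range J

/-- If `X` has at least `J` elements then at least `J` elements have fewer than `J` above them. -/
lemma le_card_top {X : Finset (Fin n)} {J : ℕ} (h : J ≤ X.card) :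
    J ≤ (X.filter (fun x => rk X x < J)).card := by
  have himg : X.image (rk X) = range X.card := by
    apply eq_of_subset_of_card_le
    · intro v hv
      obtain ⟨x, hx, rfl⟩ := mem_image.1 hv
      exact mem_range.2 (rk_lt_card hx)
    · rw [card_range, card_image_of_injOn (rk_injOn X)]
  have hsub : range J ⊆ (X.filter (fun x => rk X x < J)).image (rk X) := by
    intro v hv
    have hv' := mem_range.1 hv
    have : v ∈ X.image (rk X) := by
      rw [himg]
      exact mem_range.2 (by omega)
    obtain ⟨x, hx, rfl⟩ := mem_image.1 this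
    exact mem_image.2 ⟨x, mem_filter.2 ⟨hx, hv'⟩, rfl⟩
  calc J = (range J).card := (card_range J).symm
    _ ≤ ((X.filter (fun x => rk X x < J)).image (rk X)).card := card_le_card hsub
    _ ≤ (X.filter (fun x => rk X x < J)).card := card_image_le

variable {q : ℕ} (σ : Fin q → Fin n) (J : ℕ)

/-- Top common zeros of two rows. -/
def TopC (a b : Fin n) (J : ℕ) : Finset (Fin n) := (zc A a b).filter (fun x => up A a b x < J)

lemma card_TopC_le (a b : Fin n) (J : ℕ) : (TopC A a b J).card ≤ J := by
  exact card_top_le (zc A a b) J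

/-- Deleted columns. -/
def Del : Finset (Fin n) :=
  univ.biUnion (fun i : Fin q => univ.biUnion (fun i' : Fin q =>
    if σ i < σ i' then TopC A (σ i) (σ i') (4 * J) ∪ Miss A (σ i) (σ i') (2 * J) else ∅))

lemma mem_Del_of {i i' : Fin q} (h : σ i < σ i') {c : Fin n}
    (hc : c ∈ TopC A (σ i) (σ i') (4 * J) ∨ c ∈ Miss A (σ i) (σ i') (2 * J)) : c ∈ Del A σ J := by
  unfold Del
  simp only [mem_biUnion, mem_univ, true_and]
  refine ⟨i, i', ?_⟩
  rw [if_pos h]
  exact mem_union.2 hc

/-- Exactness of the sample on the retained columns. -/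
lemma sample_P {i j : Fin q} (hij : σ i < σ j) {x c : Fin n} (hx : x ∉ Del A σ J)
    (hc : c ∉ Del A σ J) (h1 : A (σ i) x = false) (h2 : A (σ j) x = false)
    (h3 : A (σ i) c = false) (hlt : c < x) : A (σ j) c = false := by
  by_contra hne
  have hne' : A (σ j) c = true := by simpa using hne
  have hx4 : 4 * J ≤ up A (σ i) (σ j) x := by
    by_contra hlt4
    apply hx
    apply mem_Del_of A σ J hij
    left
    unfold TopC
    simp only [mem_filter]
    refine ⟨?_, by omega⟩
    simp [zc, h1, h2]
  apply hc
  apply mem_Del_of A σ J hij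
  right
  unfold Miss
  simp only [mem_filter, mem_univ, true_and]
  refine ⟨h3, hne', ?_⟩
  have := up_mono A (σ i) (σ j) hlt.le
  omega

/-- The supported relation at row `r`. -/
def St (r x y : Fin n) : Prop :=
  x < y ∧ x ∉ Del A σ J ∧ y ∉ Del A σ J ∧ ∃ i, σ i < r ∧ A (σ i) x = false ∧ A (σ i) y = false

lemma St_succ {r x x' y : Fin n} (h1 : St A σ J r x y) (h2 : St A σ J r x' y) (hlt : x' < x) :
    St A σ J r x' x := by
  obtain ⟨hxy, hx, hy, i, hi, hi1, hi2⟩ := h1
  obtain ⟨hxy', hx', _, j, hj, hj1, hj2⟩ := h2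
  refine ⟨hlt, hx', hx, ?_⟩
  rcases lt_trichotomy (σ i) (σ j) with h | h | h
  · -- x belongs to the later row
    refine ⟨j, hj, hj1, ?_⟩
    exact sample_P A σ J h hy hx hi2 hj2 hi1 hxy
  · refine ⟨i, hi, ?_, hi1⟩
    rw [h]
    exact hj1
  · refine ⟨i, hi, ?_, hi1⟩
    exact sample_P A σ J h hy hx' hj2 hi2 hj1 hxy'

/-- Reachability at row `r`. -/
def Reach (r x m : Fin n) : Prop := Relation.ReflTransGen (St A σ J r) x m

lemma Reach_le {r x m : Fin n} (h : Reach A σ J r x m) : x ≤ m := by
  induction h with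
  | refl => exact le_rfl
  | tail _ hbc ih => exact ih.trans hbc.1.le

/-- The chain property. -/
lemma Reach_chain (r : Fin n) : ∀ (m x y : Fin n), Reach A σ J r x m → Reach A σ J r y m → x < y →
    Reach A σ J r x y := by
  intro m
  induction m using WellFoundedLT.induction with
  | ind m ih =>
    intro x y hx hy hxy
    rcases Relation.ReflTransGen.cases_tail hy with rfl | ⟨y2, hy2, hys⟩
    · exact hx
    · rcases Relation.ReflTransGen.cases_tail hx with rfl | ⟨x2, hx2, hxs⟩
      · exact absurd (lt_of_lt_of_le hxy (Reach_le A σ J hy)) (lt_irrefl _)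
      · rcases lt_trichotomy x2 y2 with h | h | h
        · have hs : St A σ J r x2 y2 := St_succ A σ J hys hxs h
          exact ih y2 hys.1 x y (hx2.tail hs) hy2 hxy
        · subst h
          exact ih x2 hxs.1 x y hx2 hy2 hxy
        · have hs : St A σ J r y2 x2 := St_succ A σ J hxs hys h
          exact ih x2 hxs.1 x y hx2 (hy2.tail hs) hxy

lemma St_mono {r r' x y : Fin n} (h : r ≤ r') (hs : St A σ J r x y) : St A σ J r' x y := by
  obtain ⟨a, b, c, i, hi, d⟩ := hs
  exact ⟨a, b, c, i, lt_of_lt_of_le hi h, d⟩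

lemma Reach_mono {r r' x y : Fin n} (h : r ≤ r') (hs : Reach A σ J r x y) : Reach A σ J r' x y := by
  unfold Reach at hs ⊢
  induction hs with
  | refl => exact Relation.ReflTransGen.refl
  | tail _ hbc ih => exact ih.tail (St_mono A σ J h hbc)

/-- The matrix built from pivots. -/
def BOf (piv : Fin n → Option (Fin n)) (r c : Fin n) : Bool :=
  decide (¬ ∃ m, piv r = some m ∧ Reach A σ J r c m)

lemma BOf_false {piv : Fin n → Option (Fin n)} {r c : Fin n} :
    BOf A σ J piv r c = false ↔ ∃ m, piv r = some m ∧ Reach A σ J r c m := by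
  simp [BOf]

/-- Freeness of the pivot matrix. -/
lemma BOf_free (piv : Fin n → Option (Fin n)) (a r c m : Fin n) :
    ¬ CpT (BOf A σ J piv) a r c m := by
  rintro ⟨har, hcm, h1, h2, h3, h4⟩
  rw [BOf_false A σ J] at h1 h2 h4
  obtain ⟨m1, hp1, hr1⟩ := h1
  obtain ⟨m2, hp2, hr2⟩ := h2
  obtain ⟨m3, hp3, hr3⟩ := h4
  have e : m1 = m2 := by
    rw [hp1] at hp2
    exact Option.some.inj hp2
  subst e
  have h5 : Reach A σ J a c m := Reach_chain A σ J a m1 c m hr1 hr2 hcm
  have h6 : Reach A σ J r c m := Reach_mono A σ J har.le h5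
  have h7 : Reach A σ J r c m3 := h6.trans hr3
  have : BOf A σ J piv r c = false := (BOf_false A σ J).2 ⟨m3, hp3, h7⟩
  rw [this] at h3
  exact Bool.false_ne_true h3

end

end Vale.Agent.Lib.P037
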