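import Mathlib
import Vale.Agent.Lib.P037.Tee
import Vale.Agent.Lib.P037.Defs

namespace Vale.Agent.Lib.P037

open Finset

open Classical

noncomputable section

variable {n : ℕ} (A : Fin n → Fin n → Bool) {q : ℕ} (σ : Fin q → Fin n) (J : ℕ)

/-- A light row: few copies with every sampled row. -/
def Light (r : Fin n) : Prop := ∀ i, σ i < r → NRow A (σ i) r ≤ J ^ 2

/-- The invariant. -/
def Good (r y : Fin n) : Prop :=
  ∀ i, σ i < r → A (σ i) y = false → (∀ j, σ j < r → A (σ j) y = false → σ j ≤ σ i) →
    J ≤ up A (σ i) r y

lemma card_Miss_le_J (hJ : 0 < J) {r : Fin n} (hL : Light A σ J r) {i : Fin q} (hi : σ i < r) :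
    (Miss A (σ i) r J).card ≤ J := by
  have h1 := card_Miss_le A hi J
  have h2 := hL i hi
  have h3 : J * (Miss A (σ i) r J).card ≤ J * J := by nlinarith
  exact Nat.le_of_mul_le_mul_left h3 hJ

lemma Good_step (hJ : 0 < J) {r : Fin n} (hL : Light A σ J r) {y y' : Fin n}
    (hG : Good A σ J r y) (hS : St A σ J r y' y) :
    (A r y' = false ∨ ∃ i, σ i < r ∧ y' ∈ Miss A (σ i) r J) ∧ Good A σ J r y' := by
  obtain ⟨hlt, hy'D, hyD, i0, hi0, h1, h2⟩ := hS
  -- the nearest row
  have hne : (univ.filter (fun i => σ i < r ∧ A (σ i) y = false)).Nonempty :=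
    ⟨i0, by simp [hi0, h2]⟩
  obtain ⟨i, hiF, hmaxF⟩ := exists_max_image _ σ hne
  simp only [mem_filter, mem_univ, true_and] at hiF
  obtain ⟨hi, hiy⟩ := hiF
  have hmax : ∀ j, σ j < r → A (σ j) y = false → σ j ≤ σ i := by
    intro j h3 h4
    exact hmaxF j (by simp [h3, h4])
  have hy'i : A (σ i) y' = false := by
    rcases (hmax i0 hi0 h2).lt_or_eq with h | h
    · exact sample_P A σ J h hyD hy'D h2 hiy h1 hlt
    · rw [← h]; exact h1
  have hup : J ≤ up A (σ i) r y := hG i hi hiy hmax
  have hup' : J ≤ up A (σ i) r y' := hup.trans (up_mono A _ _ hlt.le)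
  constructor
  · by_cases h : A r y' = false
    · exact Or.inl h
    · right
      refine ⟨i, hi, ?_⟩
      simp only [Miss, mem_filter, mem_univ, true_and]
      exact ⟨hy'i, by simpa using h, hup'⟩
  · intro i' hi' hi'y' hmax'
    have hle : σ i ≤ σ i' := hmax' i hi hy'i
    rcases hle.lt_or_eq with hii' | hii'
    · -- two different rows
      have h4 : 4 * J ≤ up A (σ i) (σ i') y' := by
        by_contra hcon
        apply hy'D
        apply mem_Del_of A σ J hii'
        left
        simp only [TopC, mem_filter]
        exact ⟨by simp [zc, hy'i, hi'y'], by omega⟩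
      set Up := (zc A (σ i) (σ i')).filter (fun x => y' < x) with hUp
      set Up1 := Up.filter (fun x => x < y) with hUp1
      set Up2 := Up.filter (fun x => ¬ x < y) with hUp2
      have hcard : Up1.card + Up2.card = Up.card := card_filter_add_card_filter_not _
      have hUpc : Up.card = up A (σ i) (σ i') y' := rfl
      by_cases h2J : 2 * J ≤ Up1.card
      · have hsub : Up1 ⊆ Miss A (σ i) r J ∪ (zc A (σ i') r).filter (fun x => y' < x) := by
          intro x hx
          simp only [hUp1, hUp, zc, mem_filter, mem_univ, true_and] at hx
          obtain ⟨⟨⟨hx1, hx2⟩, hx3⟩, hx4⟩ := hx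
          by_cases hrx : A r x = false
          · apply mem_union_right
            simp only [zc, mem_filter, mem_univ, true_and]
            exact ⟨⟨hx2, hrx⟩, hx3⟩
          · apply mem_union_left
            simp only [Miss, mem_filter, mem_univ, true_and]
            exact ⟨hx1, by simpa using hrx, hup.trans (up_mono A _ _ hx4.le)⟩
        have h5 := (card_le_card hsub).trans (card_union_le _ _)
        have h6 := card_Miss_le_J A σ J hJ hL hi
        have h7 : ((zc A (σ i') r).filter (fun x => y' < x)).card = up A (σ i') r y' := rfl
        omega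
      · exfalso
        have hyi' : A (σ i') y = true := by
          by_contra hcon
          have := hmax i' hi' (by simpa using hcon)
          exact absurd hii' (not_lt.2 this)
        apply hyD
        apply mem_Del_of A σ J hii'
        right
        simp only [Miss, mem_filter, mem_univ, true_and]
        refine ⟨hiy, hyi', ?_⟩
        have hsub : Up2 ⊆ (zc A (σ i) (σ i')).filter (fun x => y < x) := by
          intro x hx
          simp only [hUp2, hUp, zc, mem_filter, mem_univ, true_and] at hx ⊢
          obtain ⟨⟨⟨hx1, hx2⟩, _⟩, hx4⟩ := hx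
          refine ⟨⟨hx1, hx2⟩, ?_⟩
          rcases (not_lt.1 hx4).lt_or_eq with h | h
          · exact h
          · subst h
            rw [hyi'] at hx2
            exact absurd hx2 (by simp)
        have h5 := card_le_card hsub
        have h7 : ((zc A (σ i) (σ i')).filter (fun x => y < x)).card = up A (σ i) (σ i') y := rfl
        omega
    · have : σ i' = σ i := hii'.symm
      rw [this]
      exact hup'

/-- Everything reachable from a good pivot is a zero of the row, or a missed column. -/
lemma Reach_cost (hJ : 0 < J) {r m : Fin n} (hL : Light A σ J r) (hm : A r m = false)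
    (hG : Good A σ J r m) {c : Fin n} (hc : Reach A σ J r c m) :
    A r c = false ∨ ∃ i, σ i < r ∧ c ∈ Miss A (σ i) r J := by
  have key : (A r c = false ∨ ∃ i, σ i < r ∧ c ∈ Miss A (σ i) r J) ∧ Good A σ J r c := by
    unfold Reach at hc
    induction hc using Relation.ReflTransGen.head_induction_on with
    | refl => exact ⟨Or.inl hm, hG⟩
    | head h _ ih => exact Good_step A σ J hJ hL ih.2 h
  exact key.1

/-- The row with a given pivot. -/
def rowB (o : Option (Fin n)) (r c : Fin n) : Bool :=
  decide (¬ ∃ m, o = some m ∧ Reach A σ J r c m)

lemma rowB_false {o : Option (Fin n)} {r c : Fin n} :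
    rowB A σ J o r c = false ↔ ∃ m, o = some m ∧ Reach A σ J r c m := by
  simp [rowB]

/-- Retained zeros of a row. -/
def XX (r : Fin n) : Finset (Fin n) := univ.filter (fun c => A r c = false ∧ c ∉ Del A σ J)

/-- Top common zeros with the sample. -/
def Etop (r : Fin n) : Finset (Fin n) :=
  univ.biUnion (fun i : Fin q => if σ i < r then TopC A (σ i) r J else ∅)

lemma card_Etop_le (r : Fin n) : (Etop A σ J r).card ≤ q * J := by
  unfold Etop
  calc _ ≤ ∑ i : Fin q, (if σ i < r then TopC A (σ i) r J else ∅).card := card_biUnion_le
    _ ≤ ∑ _i : Fin q, J := by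
        apply sum_le_sum
        intro i _
        split_ifs
        · exact card_TopC_le A _ _ _
        · simp
    _ = q * J := by simp

/-- Union of the missed columns. -/
def MissU (r : Fin n) : Finset (Fin n) :=
  univ.biUnion (fun i : Fin q => if σ i < r then Miss A (σ i) r J else ∅)

lemma card_MissU_le (hJ : 0 < J) {r : Fin n} (hL : Light A σ J r) :
    (MissU A σ J r).card ≤ q * J := by
  unfold MissU
  calc _ ≤ ∑ i : Fin q, (if σ i < r then Miss A (σ i) r J else ∅).card := card_biUnion_le
    _ ≤ ∑ _i : Fin q, J := by
        apply sum_le_sum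
        intro i _
        split_ifs with h
        · exact card_Miss_le_J A σ J hJ hL h
        · simp
    _ = q * J := by simp

/-- Unsupported pairs with top element `m`. -/
def eeS (r m : Fin n) : Finset (Fin n) :=
  univ.filter (fun c => c < m ∧ A r c = false ∧
    ¬ ∃ i, σ i < r ∧ A (σ i) c = false ∧ A (σ i) m = false)

/-- Number of all unsupported pairs of zeros of a row. -/
def EE (r : Fin n) : ℕ := ∑ m ∈ univ.filter (fun m => A r m = false), (eeS A σ r m).card

/-- The cost of a single light row. -/
lemma row_cost (hJ : 0 < J) {K : ℕ} (hK0 : 0 < K) (hK : 2 * q * J ≤ K) {r : Fin n}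
    (hL : Light A σ J r) :
    ∃ o : Option (Fin n),
      K * (univ.filter (fun c => A r c ≠ rowB A σ J o r c)).card ≤
        K * (q * J + (Del A σ J).card + K) + 2 * EE A σ r := by
  by_cases hX : K ≤ (XX A σ J r).card
  · set X := XX A σ J r with hXdef
    set Q := X.filter (fun x => rk X x < K) with hQ
    have hQ1 : K ≤ Q.card := le_card_top hX
    have hQ2 : Q.card ≤ K := card_top_le X K
    set Cand := Q \ Etop A σ J r with hCand
    have hCard : K ≤ 2 * Cand.card := by
      have h1 : Q.card ≤ Cand.card + (Etop A σ J r).card := card_le_card_sdiff_add_card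
      have h2 := card_Etop_le A σ J r
      have h3 : 2 * (q * J) ≤ K := by nlinarith
      omega
    have hne : Cand.Nonempty := by
      rw [← card_pos]
      omega
    obtain ⟨m, hmC, hmin⟩ := exists_min_image Cand (fun x => (eeS A σ r x).card) hne
    have hmC' := mem_sdiff.1 hmC
    have hmX : m ∈ X := (mem_filter.1 hmC'.1).1
    have hmK : rk X m < K := (mem_filter.1 hmC'.1).2
    have hmX' := hmX
    simp only [hXdef, XX, mem_filter, mem_univ, true_and] at hmX'
    obtain ⟨hm0, hmD⟩ := hmX'
    have hG : Good A σ J r m := by
      intro i hi him _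
      by_contra hcon
      apply hmC'.2
      simp only [Etop, mem_biUnion, mem_univ, true_and]
      refine ⟨i, ?_⟩
      rw [if_pos hi]
      simp only [TopC, mem_filter]
      exact ⟨by simp [zc, him, hm0], by omega⟩
    have hee : K * (eeS A σ r m).card ≤ 2 * EE A σ r := by
      have h1 : Cand.card * (eeS A σ r m).card ≤ EE A σ r := by
        calc Cand.card * (eeS A σ r m).card = ∑ _x ∈ Cand, (eeS A σ r m).card := by simp
          _ ≤ ∑ x ∈ Cand, (eeS A σ r x).card := sum_le_sum hmin
          _ ≤ EE A σ r := by
              unfold EE
              apply sum_le_sum_of_subset_of_nonneg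
              · intro x hx
                have := (mem_filter.1 (mem_sdiff.1 hx).1).1
                simp only [hXdef, XX, mem_filter, mem_univ, true_and] at this ⊢
                exact this.1
              · intro _ _ _
                exact Nat.zero_le _
      calc K * (eeS A σ r m).card ≤ (2 * Cand.card) * (eeS A σ r m).card :=
            Nat.mul_le_mul_right _ hCard
        _ = 2 * (Cand.card * (eeS A σ r m).card) := by ring
        _ ≤ 2 * EE A σ r := Nat.mul_le_mul_left _ h1
    refine ⟨some m, ?_⟩
    have hsub : univ.filter (fun c => A r c ≠ rowB A σ J (some m) r c) ⊆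
        MissU A σ J r ∪ (Del A σ J ∪ (Q ∪ eeS A σ r m)) := by
      intro c hc
      simp only [mem_filter, mem_univ, true_and] at hc
      cases hAc : A r c with
      | true =>
        have h1 : rowB A σ J (some m) r c = false := by
          rw [hAc] at hc
          cases h : rowB A σ J (some m) r c with
          | false => rfl
          | true => rw [h] at hc; exact absurd rfl hc
        obtain ⟨m', hm', hR⟩ := (rowB_false A σ J).1 h1
        have : m' = m := (Option.some.inj hm').symm
        subst this
        rcases Reach_cost A σ J hJ hL hm0 hG hR with h | ⟨i, hi, hc'⟩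
        · rw [hAc] at h; exact absurd h (by simp)
        · apply mem_union_left
          simp only [MissU, mem_biUnion, mem_univ, true_and]
          refine ⟨i, ?_⟩
          rw [if_pos hi]
          exact hc'
      | false =>
        have h1 : ¬ Reach A σ J r c m := by
          intro hR
          have : rowB A σ J (some m) r c = false := (rowB_false A σ J).2 ⟨m, rfl, hR⟩
          rw [hAc, this] at hc
          exact hc rfl
        apply mem_union_right
        by_cases hcD : c ∈ Del A σ J
        · exact mem_union_left _ hcD
        · apply mem_union_right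
          have hcX : c ∈ X := by
            simp only [hXdef, XX, mem_filter, mem_univ, true_and]
            exact ⟨hAc, hcD⟩
          rcases lt_trichotomy c m with h | h | h
          · apply mem_union_right
            simp only [eeS, mem_filter, mem_univ, true_and]
            refine ⟨h, hAc, ?_⟩
            rintro ⟨i, hi, hi1, hi2⟩
            apply h1
            exact Relation.ReflTransGen.single ⟨h, hcD, hmD, i, hi, hi1, hi2⟩
          · subst h
            exact absurd Relation.ReflTransGen.refl h1
          · apply mem_union_left
            simp only [hQ, mem_filter]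
            exact ⟨hcX, (rk_lt hcX h).trans hmK⟩
    have hc1 := card_le_card hsub
    have hc2 : (MissU A σ J r ∪ (Del A σ J ∪ (Q ∪ eeS A σ r m))).card ≤
        (MissU A σ J r).card + ((Del A σ J).card + (Q.card + (eeS A σ r m).card)) := by
      refine (card_union_le _ _).trans (Nat.add_le_add_left ?_ _)
      refine (card_union_le _ _).trans (Nat.add_le_add_left ?_ _)
      exact card_union_le _ _
    have hc3 := card_MissU_le A σ J hJ hL
    have hc4 : (univ.filter (fun c => A r c ≠ rowB A σ J (some m) r c)).card ≤
        (q * J + (Del A σ J).card + K) + (eeS A σ r m).card := by omega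
    calc K * (univ.filter (fun c => A r c ≠ rowB A σ J (some m) r c)).card
        ≤ K * ((q * J + (Del A σ J).card + K) + (eeS A σ r m).card) := Nat.mul_le_mul_left _ hc4
      _ = K * (q * J + (Del A σ J).card + K) + K * (eeS A σ r m).card := by ring
      _ ≤ K * (q * J + (Del A σ J).card + K) + 2 * EE A σ r := Nat.add_le_add_left hee _
  · refine ⟨none, ?_⟩
    have hsub : univ.filter (fun c => A r c ≠ rowB A σ J none r c) ⊆
        XX A σ J r ∪ Del A σ J := by
      intro c hc
      simp only [mem_filter, mem_univ, true_and] at hc
      have h1 : rowB A σ J none r c = true := by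
        by_contra hcon
        have : rowB A σ J none r c = false := by simpa using hcon
        obtain ⟨m', hm', _⟩ := (rowB_false A σ J).1 this
        exact absurd hm' (by simp)
      rw [h1] at hc
      have h2 : A r c = false := by simpa using hc
      by_cases hcD : c ∈ Del A σ J
      · exact mem_union_right _ hcD
      · apply mem_union_left
        simp only [XX, mem_filter, mem_univ, true_and]
        exact ⟨h2, hcD⟩
    have hc1 := (card_le_card hsub).trans (card_union_le _ _)
    have hc2 : (univ.filter (fun c => A r c ≠ rowB A σ J none r c)).card ≤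
        q * J + (Del A σ J).card + K := by omega
    calc K * (univ.filter (fun c => A r c ≠ rowB A σ J none r c)).card
        ≤ K * (q * J + (Del A σ J).card + K) := Nat.mul_le_mul_left _ hc2
      _ ≤ K * (q * J + (Del A σ J).card + K) + 2 * EE A σ r := Nat.le_add_right _ _

end

end Vale.Agent.Lib.P037
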