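import Mathlib
import Vale.Agent.Lib.P037.TeeCost

namespace Vale.Agent.Lib.P037

open Finset

open Classical

noncomputable section

variable {n : ℕ} (A : Fin n → Fin n → Bool) {q : ℕ} (σ : Fin q → Fin n) (J : ℕ)

/-- Number of heavy rows. -/
def HH : ℕ := (univ.filter (fun r => ¬ Light A σ J r)).card

/-- First sample cost. -/
def L1T : ℕ := ∑ r, ∑ i, NRow A (σ i) r

/-- Second sample cost. -/
def L2T : ℕ := ∑ i, ∑ i', NRow A (σ i) (σ i')

/-- Rows with a common zero at `c` and `m`. -/
def WZ (c m : Fin n) : Finset (Fin n) := univ.filter (fun r => A r c = false ∧ A r m = false)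

/-- Third sample cost. -/
def L3T : ℕ := ∑ c, ∑ m, hitc (WZ A c m) σ

lemma heavy_bound : J ^ 2 * HH A σ J ≤ L1T A σ := by
  unfold HH L1T
  calc J ^ 2 * (univ.filter (fun r => ¬ Light A σ J r)).card
      = ∑ _r ∈ univ.filter (fun r => ¬ Light A σ J r), J ^ 2 := by simp [mul_comm]
    _ ≤ ∑ r ∈ univ.filter (fun r => ¬ Light A σ J r), ∑ i, NRow A (σ i) r := by
        apply sum_le_sum
        intro r hr
        have hr' := (mem_filter.1 hr).2
        unfold Light at hr'
        push Not at hr'
        obtain ⟨i, _, hi2⟩ := hr'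
        exact hi2.le.trans (single_le_sum (f := fun i => NRow A (σ i) r)
          (fun _ _ => Nat.zero_le _) (mem_univ i))
    _ ≤ ∑ r, ∑ i, NRow A (σ i) r :=
        sum_le_sum_of_subset_of_nonneg (subset_univ _) (fun _ _ _ => Nat.zero_le _)

lemma del_bound : 2 * J * (Del A σ J).card ≤ 8 * J ^ 2 * q ^ 2 + L2T A σ := by
  have h1 : (Del A σ J).card ≤ ∑ i : Fin q, ∑ i' : Fin q,
      (if σ i < σ i' then TopC A (σ i) (σ i') (4 * J) ∪ Miss A (σ i) (σ i') (2 * J) else ∅).card := by
    unfold Del
    refine card_biUnion_le.trans (sum_le_sum (fun i _ => card_biUnion_le))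
  calc 2 * J * (Del A σ J).card ≤ 2 * J * ∑ i : Fin q, ∑ i' : Fin q,
      (if σ i < σ i' then TopC A (σ i) (σ i') (4 * J) ∪ Miss A (σ i) (σ i') (2 * J) else ∅).card :=
        Nat.mul_le_mul_left _ h1
    _ = ∑ i : Fin q, ∑ i' : Fin q, 2 * J *
      (if σ i < σ i' then TopC A (σ i) (σ i') (4 * J) ∪ Miss A (σ i) (σ i') (2 * J) else ∅).card := by
        rw [mul_sum]
        apply sum_congr rfl
        intro i _
        rw [mul_sum]
    _ ≤ ∑ i : Fin q, ∑ i' : Fin q, (8 * J ^ 2 + NRow A (σ i) (σ i')) := by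
        apply sum_le_sum
        intro i _
        apply sum_le_sum
        intro i' _
        split_ifs with h
        · have h2 := (card_union_le (TopC A (σ i) (σ i') (4 * J)) (Miss A (σ i) (σ i') (2 * J)))
          have h3 := card_TopC_le A (σ i) (σ i') (4 * J)
          have h4 := card_Miss_le A h (2 * J)
          nlinarith
        · simp
    _ = 8 * J ^ 2 * q ^ 2 + L2T A σ := by
        unfold L2T
        simp only [sum_add_distrib, sum_const, card_univ, Fintype.card_fin, smul_eq_mul]
        ring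

lemma EE_bound : ∑ r, EE A σ r ≤ L3T A σ := by
  have h1 : ∀ r, EE A σ r = ∑ c, ∑ m, if (c < m ∧ A r c = false ∧ A r m = false ∧
      ¬ ∃ i, σ i < r ∧ A (σ i) c = false ∧ A (σ i) m = false) then 1 else 0 := by
    intro r
    unfold EE eeS
    rw [sum_comm]
    rw [sum_filter]
    apply sum_congr rfl
    intro m _
    split_ifs with hm
    · rw [card_filter]
      apply sum_congr rfl
      intro c _
      by_cases h : c < m ∧ A r c = false ∧ ¬ ∃ i, σ i < r ∧ A (σ i) c = false ∧ A (σ i) m = false
      · rw [if_pos h, if_pos ⟨h.1, h.2.1, hm, h.2.2⟩]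
      · rw [if_neg h, if_neg]
        rintro ⟨a, b, _, d⟩
        exact h ⟨a, b, d⟩
    · symm
      apply sum_eq_zero
      intro c _
      rw [if_neg]
      rintro ⟨_, _, b, _⟩
      exact hm b
  rw [sum_congr rfl (fun r _ => h1 r)]
  unfold L3T
  rw [sum_comm]
  apply sum_le_sum
  intro c _
  rw [sum_comm]
  apply sum_le_sum
  intro m _
  unfold hitc
  rw [← card_filter]
  apply card_le_card
  intro r hr
  simp only [mem_filter, mem_univ, true_and] at hr
  obtain ⟨_, h2, h3, h4⟩ := hr
  simp only [WZ, mem_filter, mem_univ, true_and]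
  refine ⟨⟨h2, h3⟩, ?_⟩
  intro i hi
  exact h4 ⟨i, hi.2, hi.1.1, hi.1.2⟩

lemma hamming_eq_sum (B : Fin n → Fin n → Bool) :
    hamming A B = ∑ r, (univ.filter (fun c => A r c ≠ B r c)).card := by
  unfold hamming
  rw [card_filter]
  rw [Fintype.sum_prod_type]
  apply sum_congr rfl
  intro r _
  rw [card_filter]

theorem det (hJ : 0 < J) {K : ℕ} (hK0 : 0 < K) (hK : 2 * q * J ≤ K) :
    ∃ B : Fin n → Fin n → Bool, (∀ a r c m, ¬ CpT B a r c m) ∧
      K * hamming A B ≤ K * n * HH A σ J + K * n * (q * J + (Del A σ J).card + K) +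
        2 * L3T A σ := by
  have hrow : ∀ r, ∃ o : Option (Fin n),
      (Light A σ J r → K * (univ.filter (fun c => A r c ≠ rowB A σ J o r c)).card ≤
        K * (q * J + (Del A σ J).card + K) + 2 * EE A σ r) := by
    intro r
    by_cases hL : Light A σ J r
    · obtain ⟨o, ho⟩ := row_cost A σ J hJ hK0 hK hL
      exact ⟨o, fun _ => ho⟩
    · exact ⟨none, fun h => absurd h hL⟩
  choose piv hpiv using hrow
  refine ⟨BOf A σ J piv, BOf_free A σ J piv, ?_⟩
  have hB : ∀ r c, BOf A σ J piv r c = rowB A σ J (piv r) r c := fun _ _ => rfl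
  rw [hamming_eq_sum, mul_sum]
  have hstep : ∀ r, K * (univ.filter (fun c => A r c ≠ BOf A σ J piv r c)).card ≤
      (if ¬ Light A σ J r then K * n else 0) +
        (K * (q * J + (Del A σ J).card + K) + 2 * EE A σ r) := by
    intro r
    by_cases hL : Light A σ J r
    · rw [if_neg (not_not.2 hL), zero_add]
      simp only [hB]
      exact hpiv r hL
    · rw [if_pos hL]
      have : (univ.filter (fun c => A r c ≠ BOf A σ J piv r c)).card ≤ n := by
        calc _ ≤ (univ : Finset (Fin n)).card := card_le_card (filter_subset _ _)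
          _ = n := by simp
      have h2 : K * (univ.filter (fun c => A r c ≠ BOf A σ J piv r c)).card ≤ K * n :=
        Nat.mul_le_mul_left _ this
      omega
  calc ∑ r, K * (univ.filter (fun c => A r c ≠ BOf A σ J piv r c)).card
      ≤ ∑ r, ((if ¬ Light A σ J r then K * n else 0) +
        (K * (q * J + (Del A σ J).card + K) + 2 * EE A σ r)) := sum_le_sum (fun r _ => hstep r)
    _ = K * n * HH A σ J + n * (K * (q * J + (Del A σ J).card + K)) + 2 * ∑ r, EE A σ r := by
        rw [sum_add_distrib, sum_add_distrib, sum_ite, sum_const_zero, add_zero, sum_const, sum_const,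
          ← mul_sum]
        simp only [card_univ, Fintype.card_fin, smul_eq_mul, HH]
        ring
    _ ≤ K * n * HH A σ J + K * n * (q * J + (Del A σ J).card + K) + 2 * L3T A σ := by
        have := EE_bound A σ
        nlinarith

end

end Vale.Agent.Lib.P037
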