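import Mathlib
import Vale.Agent.Lib.P037.TeeDet
import Vale.Agent.Lib.P037.Avg

namespace Vale.Agent.Lib.P037

open Finset

open Classical

noncomputable section

/-- Arithmetic of the parameters. -/
lemma arithT {Q n q J K L1 L2 L3 H D hamm : ℕ} (hQ : 2 ≤ Q) (hn : Q ^ 12 ≤ n) (hq : q = Q ^ 2)
    (hJ : J = n / Q ^ 6) (hK : K = n / Q)
    (hPhi : Q ^ 40 * L1 + Q ^ 40 * n * L2 + Q ^ 2 * L3 ≤ 4 * n ^ 3)
    (hH : J ^ 2 * H ≤ L1) (hD : 2 * J * D ≤ 8 * J ^ 2 * q ^ 2 + L2)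
    (hdet : K * hamm ≤ K * n * H + K * n * (q * J + D + K) + 2 * L3) :
    hamm * Q ≤ 22 * n ^ 2 := by
  have hQ0 : 0 < Q := by omega
  have hn0 : 0 < n := lt_of_lt_of_le (by positivity) hn
  have hQ6 : Q ^ 6 ≤ n := (Nat.pow_le_pow_right hQ0 (by norm_num)).trans hn
  have hQ1 : Q ≤ n := by
    calc Q = Q ^ 1 := (pow_one Q).symm
      _ ≤ Q ^ 12 := Nat.pow_le_pow_right hQ0 (by norm_num)
      _ ≤ n := hn
  have hQ6pos : 0 < Q ^ 6 := by positivity
  have hJ1 : J * Q ^ 6 ≤ n := by rw [hJ]; exact Nat.div_mul_le_self _ _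
  have hJ2 : 1 ≤ J := by rw [hJ]; exact Nat.div_pos hQ6 hQ6pos
  have hJ3 : n ≤ 2 * J * Q ^ 6 := by
    have h1 := Nat.div_add_mod n (Q ^ 6)
    have h2 := Nat.mod_lt n hQ6pos
    rw [← hJ] at h1
    nlinarith
  have hK1 : K * Q ≤ n := by rw [hK]; exact Nat.div_mul_le_self _ _
  have hK2 : 1 ≤ K := by rw [hK]; exact Nat.div_pos hQ1 hQ0
  have hK3 : n ≤ 2 * K * Q := by
    have h1 := Nat.div_add_mod n Q
    have h2 := Nat.mod_lt n hQ0
    rw [← hK] at h1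
    nlinarith
  have hL1 : Q ^ 40 * L1 ≤ 4 * n ^ 3 := by
    have : Q ^ 40 * L1 ≤ Q ^ 40 * L1 + Q ^ 40 * n * L2 + Q ^ 2 * L3 := by omega
    exact this.trans hPhi
  have hL2 : Q ^ 40 * n * L2 ≤ 4 * n ^ 3 := by
    have : Q ^ 40 * n * L2 ≤ Q ^ 40 * L1 + Q ^ 40 * n * L2 + Q ^ 2 * L3 := by omega
    exact this.trans hPhi
  have hL3 : Q ^ 2 * L3 ≤ 4 * n ^ 3 := by
    have : Q ^ 2 * L3 ≤ Q ^ 40 * L1 + Q ^ 40 * n * L2 + Q ^ 2 * L3 := by omega
    exact this.trans hPhi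
  -- heavy rows
  have hc : Q * H ≤ n := by
    have h1 : Q ^ 40 * (J ^ 2 * H) ≤ 4 * n ^ 3 := (Nat.mul_le_mul_left _ hH).trans hL1
    have h2 : n ^ 2 ≤ 4 * J ^ 2 * Q ^ 12 := by
      calc n ^ 2 ≤ (2 * J * Q ^ 6) ^ 2 := Nat.pow_le_pow_left hJ3 2
        _ = 4 * J ^ 2 * Q ^ 12 := by ring
    have h3 : n ^ 2 * (Q ^ 40 * H) ≤ n ^ 2 * (16 * Q ^ 12 * n) := by
      calc n ^ 2 * (Q ^ 40 * H) ≤ (4 * J ^ 2 * Q ^ 12) * (Q ^ 40 * H) :=
            Nat.mul_le_mul_right _ h2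
        _ = 4 * Q ^ 12 * (Q ^ 40 * (J ^ 2 * H)) := by ring
        _ ≤ 4 * Q ^ 12 * (4 * n ^ 3) := Nat.mul_le_mul_left _ h1
        _ = n ^ 2 * (16 * Q ^ 12 * n) := by ring
    have h4 : Q ^ 40 * H ≤ 16 * Q ^ 12 * n := Nat.le_of_mul_le_mul_left h3 (by positivity)
    have h5 : Q ^ 12 * (Q ^ 28 * H) ≤ Q ^ 12 * (16 * n) := by
      calc Q ^ 12 * (Q ^ 28 * H) = Q ^ 40 * H := by ring
        _ ≤ 16 * Q ^ 12 * n := h4
        _ = Q ^ 12 * (16 * n) := by ring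
    have h6 : Q ^ 28 * H ≤ 16 * n := Nat.le_of_mul_le_mul_left h5 (by positivity)
    have h7 : 16 ≤ Q ^ 27 := by
      calc 16 ≤ 2 ^ 27 := by norm_num
        _ ≤ Q ^ 27 := Nat.pow_le_pow_left hQ 27
    have h8 : 16 * (Q * H) ≤ 16 * n := by
      calc 16 * (Q * H) ≤ Q ^ 27 * (Q * H) := Nat.mul_le_mul_right _ h7
        _ = Q ^ 28 * H := by ring
        _ ≤ 16 * n := h6
    omega
  -- deleted columns
  have hd : Q * D ≤ 3 * n := by
    have h1 : Q ^ 40 * L2 ≤ 4 * n ^ 2 := by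
      have : n * (Q ^ 40 * L2) ≤ n * (4 * n ^ 2) := by
        calc n * (Q ^ 40 * L2) = Q ^ 40 * n * L2 := by ring
          _ ≤ 4 * n ^ 3 := hL2
          _ = n * (4 * n ^ 2) := by ring
      exact Nat.le_of_mul_le_mul_left this hn0
    have h2 : 4 ≤ Q ^ 33 := by
      calc 4 ≤ 2 ^ 33 := by norm_num
        _ ≤ Q ^ 33 := Nat.pow_le_pow_left hQ 33
    have h3 : Q ^ 7 * L2 ≤ n ^ 2 := by
      have : 4 * (Q ^ 7 * L2) ≤ 4 * n ^ 2 := by
        calc 4 * (Q ^ 7 * L2) ≤ Q ^ 33 * (Q ^ 7 * L2) := Nat.mul_le_mul_right _ h2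
          _ = Q ^ 40 * L2 := by ring
          _ ≤ 4 * n ^ 2 := h1
      omega
    have h4 : Q * L2 ≤ 2 * J * n := by
      have : Q ^ 6 * (Q * L2) ≤ Q ^ 6 * (2 * J * n) := by
        calc Q ^ 6 * (Q * L2) = Q ^ 7 * L2 := by ring
          _ ≤ n ^ 2 := h3
          _ = n * n := by ring
          _ ≤ (2 * J * Q ^ 6) * n := Nat.mul_le_mul_right _ hJ3
          _ = Q ^ 6 * (2 * J * n) := by ring
      exact Nat.le_of_mul_le_mul_left this hQ6pos
    have h5 : 8 * J ^ 2 * Q ^ 5 ≤ 4 * J * n := by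
      have : 2 * (8 * J ^ 2 * Q ^ 5) ≤ 2 * (4 * J * n) := by
        calc 2 * (8 * J ^ 2 * Q ^ 5) ≤ Q * (8 * J ^ 2 * Q ^ 5) := Nat.mul_le_mul_right _ hQ
          _ = 8 * J * (J * Q ^ 6) := by ring
          _ ≤ 8 * J * n := Nat.mul_le_mul_left _ hJ1
          _ = 2 * (4 * J * n) := by ring
      omega
    have h6 : (2 * J) * (Q * D) ≤ (2 * J) * (3 * n) := by
      calc (2 * J) * (Q * D) = Q * (2 * J * D) := by ring
        _ ≤ Q * (8 * J ^ 2 * q ^ 2 + L2) := Nat.mul_le_mul_left _ hD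
        _ = 8 * J ^ 2 * Q ^ 5 + Q * L2 := by rw [hq]; ring
        _ ≤ 4 * J * n + 2 * J * n := Nat.add_le_add h5 h4
        _ = (2 * J) * (3 * n) := by ring
    exact Nat.le_of_mul_le_mul_left h6 (by omega)
  have he : Q * (q * J) ≤ n := by
    have h1 : Q ^ 3 ≤ Q ^ 6 := Nat.pow_le_pow_right hQ0 (by norm_num)
    calc Q * (q * J) = Q ^ 3 * J := by rw [hq]; ring
      _ ≤ Q ^ 6 * J := Nat.mul_le_mul_right _ h1
      _ = J * Q ^ 6 := by ring
      _ ≤ n := hJ1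
  have hf : Q * K ≤ n := by
    calc Q * K = K * Q := by ring
      _ ≤ n := hK1
  -- the third cost
  have hg : 2 * (Q * L3) ≤ 16 * K * n ^ 2 := by
    have : Q * (2 * (Q * L3)) ≤ Q * (16 * K * n ^ 2) := by
      calc Q * (2 * (Q * L3)) = 2 * (Q ^ 2 * L3) := by ring
        _ ≤ 2 * (4 * n ^ 3) := Nat.mul_le_mul_left _ hL3
        _ = 8 * n ^ 2 * n := by ring
        _ ≤ 8 * n ^ 2 * (2 * K * Q) := Nat.mul_le_mul_left _ hK3
        _ = Q * (16 * K * n ^ 2) := by ring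
    exact Nat.le_of_mul_le_mul_left this hQ0
  have hfinal : K * (hamm * Q) ≤ K * (22 * n ^ 2) := by
    calc K * (hamm * Q) = Q * (K * hamm) := by ring
      _ ≤ Q * (K * n * H + K * n * (q * J + D + K) + 2 * L3) := Nat.mul_le_mul_left _ hdet
      _ = K * n * (Q * H) + K * n * (Q * (q * J) + Q * D + Q * K) + 2 * (Q * L3) := by ring
      _ ≤ K * n * n + K * n * (n + 3 * n + n) + 16 * K * n ^ 2 := by
          apply Nat.add_le_add
          · apply Nat.add_le_add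
            · exact Nat.mul_le_mul_left _ hc
            · apply Nat.mul_le_mul_left
              omega
          · exact hg
      _ = K * (22 * n ^ 2) := by ring
  exact Nat.le_of_mul_le_mul_left hfinal (by omega)

variable {n : ℕ} (A : Fin n → Fin n → Bool)

lemma NRow_self (x : Fin n) : NRow A x x = 0 := by
  unfold NRow
  apply sum_eq_zero
  intro c _
  apply sum_eq_zero
  intro m _
  have : ¬ CpT A x x c m := fun h => lt_irrefl _ h.1
  simp [pt, this]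

/-- Existence of a good sample. -/
lemma exists_sampleT {Q : ℕ} (hQ : 2 ≤ Q) (hn : Q ^ 12 ≤ n) (hN : NT A * Q ^ 48 ≤ n ^ 4) :
    ∃ σ : Fin (Q ^ 2) → Fin n,
      Q ^ 40 * L1T A σ + Q ^ 40 * n * L2T A σ + Q ^ 2 * L3T A σ ≤ 4 * n ^ 3 := by
  have hQ0 : 0 < Q := by omega
  have hn0 : 0 < n := lt_of_lt_of_le (by positivity) hn
  set q := Q ^ 2 with hq
  set Om := n ^ q with hOm
  set S1 := ∑ σ : Fin q → Fin n, L1T A σ with hS1
  set S2 := ∑ σ : Fin q → Fin n, L2T A σ with hS2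
  set S3 := ∑ σ : Fin q → Fin n, L3T A σ with hS3
  have e1 : n * S1 = q * Om * NT A := by
    have h := avg1 (s := q) (fun x => ∑ r, NRow A x r)
    have h2 : S1 = ∑ σ : Fin q → Fin n, ∑ i, ∑ r, NRow A (σ i) r := by
      rw [hS1]
      apply sum_congr rfl
      intro σ _
      unfold L1T
      exact sum_comm
    rw [h2, h]
    rfl
  have e2 : n ^ 2 * S2 ≤ q ^ 2 * Om * NT A := by
    exact avg2 (s := q) (fun x y => NRow A x y) (NRow_self A)
  have e3 : (q + 1) * S3 ≤ n ^ 2 * (n ^ (q + 1) + (q + 1) * Om) := by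
    have h2 : S3 = ∑ c, ∑ m, ∑ σ : Fin q → Fin n, hitc (WZ A c m) σ := by
      rw [hS3]
      unfold L3T
      rw [sum_comm]
      apply sum_congr rfl
      intro c _
      rw [sum_comm]
    rw [h2, mul_sum]
    calc ∑ c, (q + 1) * ∑ m, ∑ σ : Fin q → Fin n, hitc (WZ A c m) σ
        = ∑ c : Fin n, ∑ m : Fin n, (q + 1) * ∑ σ : Fin q → Fin n, hitc (WZ A c m) σ :=
          sum_congr rfl (fun _ _ => mul_sum _ _ _)
      _ ≤ ∑ _c : Fin n, ∑ _m : Fin n, (n ^ (q + 1) + (q + 1) * n ^ q) :=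
          sum_le_sum (fun c _ => sum_le_sum (fun m _ => sum_hitc_le (WZ A c m)))
      _ = n ^ 2 * (n ^ (q + 1) + (q + 1) * Om) := by
          simp only [sum_const, card_univ, Fintype.card_fin, smul_eq_mul]
          ring
  have b1 : Q ^ 40 * S1 ≤ n ^ 3 * Om := by
    have : n * (Q ^ 40 * S1) ≤ n * (n ^ 3 * Om) := by
      calc n * (Q ^ 40 * S1) = Q ^ 40 * (n * S1) := by ring
        _ = Q ^ 40 * (q * Om * NT A) := by rw [e1]
        _ = Q ^ 42 * (NT A * Om) := by rw [hq]; ring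
        _ ≤ Q ^ 48 * (NT A * Om) :=
            Nat.mul_le_mul_right _ (Nat.pow_le_pow_right hQ0 (by norm_num))
        _ = (NT A * Q ^ 48) * Om := by ring
        _ ≤ n ^ 4 * Om := Nat.mul_le_mul_right _ hN
        _ = n * (n ^ 3 * Om) := by ring
    exact Nat.le_of_mul_le_mul_left this hn0
  have b2 : Q ^ 40 * n * S2 ≤ n ^ 3 * Om := by
    have : n * (Q ^ 40 * n * S2) ≤ n * (n ^ 3 * Om) := by
      calc n * (Q ^ 40 * n * S2) = Q ^ 40 * (n ^ 2 * S2) := by ring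
        _ ≤ Q ^ 40 * (q ^ 2 * Om * NT A) := Nat.mul_le_mul_left _ e2
        _ = Q ^ 44 * (NT A * Om) := by rw [hq]; ring
        _ ≤ Q ^ 48 * (NT A * Om) :=
            Nat.mul_le_mul_right _ (Nat.pow_le_pow_right hQ0 (by norm_num))
        _ = (NT A * Q ^ 48) * Om := by ring
        _ ≤ n ^ 4 * Om := Nat.mul_le_mul_right _ hN
        _ = n * (n ^ 3 * Om) := by ring
    exact Nat.le_of_mul_le_mul_left this hn0
  have b3 : Q ^ 2 * S3 ≤ 2 * (n ^ 3 * Om) := by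
    have h1 : q + 1 ≤ n := by
      have h2 : Q ^ 2 + 1 ≤ Q ^ 12 := by
        have : Q ^ 3 ≤ Q ^ 12 := Nat.pow_le_pow_right hQ0 (by norm_num)
        have h3 : Q ^ 3 = Q * Q ^ 2 := by ring
        have h4 : 2 * Q ^ 2 ≤ Q * Q ^ 2 := Nat.mul_le_mul_right _ hQ
        have h5 : 0 < Q ^ 2 := by positivity
        omega
      omega
    calc Q ^ 2 * S3 ≤ (q + 1) * S3 := Nat.mul_le_mul_right _ (by omega)
      _ ≤ n ^ 2 * (n ^ (q + 1) + (q + 1) * Om) := e3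
      _ = n ^ 2 * (n * Om + (q + 1) * Om) := by rw [hOm]; ring
      _ ≤ n ^ 2 * (n * Om + n * Om) := by
          apply Nat.mul_le_mul_left
          apply Nat.add_le_add_left
          exact Nat.mul_le_mul_right _ h1
      _ = 2 * (n ^ 3 * Om) := by ring
  have hsum : ∑ σ : Fin q → Fin n,
      (Q ^ 40 * L1T A σ + Q ^ 40 * n * L2T A σ + Q ^ 2 * L3T A σ) ≤
      ∑ _σ : Fin q → Fin n, 4 * n ^ 3 := by
    rw [sum_add_distrib, sum_add_distrib, ← mul_sum, ← mul_sum, ← mul_sum, sum_const, card_univ,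
      Fintype.card_fun, Fintype.card_fin, Fintype.card_fin, smul_eq_mul, ← hOm]
    calc Q ^ 40 * S1 + Q ^ 40 * n * S2 + Q ^ 2 * S3
        ≤ n ^ 3 * Om + n ^ 3 * Om + 2 * (n ^ 3 * Om) := Nat.add_le_add (Nat.add_le_add b1 b2) b3
      _ = Om * (4 * n ^ 3) := by ring
  haveI : Nonempty (Fin n) := ⟨⟨0, hn0⟩⟩
  obtain ⟨σ, _, hσ⟩ := exists_le_of_sum_le (s := univ) univ_nonempty hsum
  exact ⟨σ, hσ⟩

lemma NT_pos_of {a r c m : Fin n} (h : CpT A a r c m) : 1 ≤ NT A := by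
  unfold NT NRow
  refine le_trans ?_ (single_le_sum (f := fun a => ∑ r, ∑ c, ∑ m, pt A a r c m)
    (fun _ _ => Nat.zero_le _) (mem_univ a))
  refine le_trans ?_ (single_le_sum (f := fun r => ∑ c, ∑ m, pt A a r c m)
    (fun _ _ => Nat.zero_le _) (mem_univ r))
  refine le_trans ?_ (single_le_sum (f := fun c => ∑ m, pt A a r c m)
    (fun _ _ => Nat.zero_le _) (mem_univ c))
  refine le_trans ?_ (single_le_sum (f := fun m => pt A a r c m)
    (fun _ _ => Nat.zero_le _) (mem_univ m))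
  rw [pt_eq_one A h]

/-- Core theorem for the pattern. -/
theorem coreT {Q : ℕ} (hQ : 2 ≤ Q) (hN : NT A * Q ^ 48 ≤ n ^ 4) :
    ∃ B : Fin n → Fin n → Bool, (∀ a r c m, ¬ CpT B a r c m) ∧ hamming A B * Q ≤ 22 * n ^ 2 := by
  by_cases h0 : NT A = 0
  · refine ⟨A, ?_, ?_⟩
    · intro a r c m h
      have := NT_pos_of A h
      omega
    · simp [hamming]
  · have hQ0 : 0 < Q := by omega
    have h1 : Q ^ 48 ≤ n ^ 4 := by
      have : 1 ≤ NT A := Nat.one_le_iff_ne_zero.2 h0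
      nlinarith [Nat.zero_le (Q ^ 48)]
    have hn : Q ^ 12 ≤ n := by
      have h2 : (Q ^ 12) ^ 4 ≤ n ^ 4 := by
        calc (Q ^ 12) ^ 4 = Q ^ 48 := by ring
          _ ≤ n ^ 4 := h1
      exact le_of_pow_le_pow_left₀ (by norm_num) (Nat.zero_le n) h2
    have hQ6 : Q ^ 6 ≤ n := (Nat.pow_le_pow_right hQ0 (by norm_num)).trans hn
    obtain ⟨σ, hσ⟩ := exists_sampleT A hQ hn hN
    set J := n / Q ^ 6 with hJ
    set K := n / Q with hK
    have hJ2 : 0 < J := Nat.div_pos hQ6 (by positivity)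
    have hQ1 : Q ≤ n := by
      calc Q = Q ^ 1 := (pow_one Q).symm
        _ ≤ Q ^ 12 := Nat.pow_le_pow_right hQ0 (by norm_num)
        _ ≤ n := hn
    have hK0 : 0 < K := Nat.div_pos hQ1 hQ0
    have hKJ : 2 * Q ^ 2 * J ≤ K := by
      have h1 : J * Q ^ 6 ≤ n := Nat.div_mul_le_self _ _
      have h2 : n ≤ 2 * K * Q := by
        have h3 := Nat.div_add_mod n Q
        have h4 := Nat.mod_lt n hQ0
        rw [← hK] at h3
        nlinarith
      have h3 : J * Q ^ 6 ≤ 2 * K * Q := h1.trans h2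
      have h4 : Q * (J * Q ^ 5) ≤ Q * (2 * K) := by
        calc Q * (J * Q ^ 5) = J * Q ^ 6 := by ring
          _ ≤ 2 * K * Q := h3
          _ = Q * (2 * K) := by ring
      have h5 : J * Q ^ 5 ≤ 2 * K := Nat.le_of_mul_le_mul_left h4 hQ0
      have h6 : 8 ≤ Q ^ 3 := by
        calc 8 = 2 ^ 3 := by norm_num
          _ ≤ Q ^ 3 := Nat.pow_le_pow_left hQ 3
      have h7 : 2 * (2 * Q ^ 2 * J) ≤ 2 * K := by
        calc 2 * (2 * Q ^ 2 * J) ≤ Q ^ 3 * (Q ^ 2 * J) := by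
              have : 4 * (Q ^ 2 * J) ≤ 8 * (Q ^ 2 * J) := by omega
              have h8 := Nat.mul_le_mul_right (Q ^ 2 * J) h6
              nlinarith
          _ = J * Q ^ 5 := by ring
          _ ≤ 2 * K := h5
      omega
    obtain ⟨B, hB, hdet⟩ := det A σ J hJ2 hK0 hKJ
    refine ⟨B, hB, ?_⟩
    exact arithT hQ hn rfl hJ hK hσ (heavy_bound A σ J) (del_bound A σ J) hdet

end

end Vale.Agent.Lib.P037
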