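import Mathlib
import Vale.Agent.Lib.P037.Defs
import Vale.Agent.Lib.P037.TeeCore

namespace Vale.Agent.Lib.P037

open Finset

/-- The pattern `[[0,0],[1,0]]`. -/
def tee : Fin 2 → Fin 2 → Bool := ![![false, false], ![true, false]]

lemma NT_le_copies {n : ℕ} (A : Fin n → Fin n → Bool) : NT A ≤ copies tee A := by
  classical
  have hNT : NT A = (univ.filter (fun q : Fin n × Fin n × Fin n × Fin n =>
      CpT A q.1 q.2.1 q.2.2.1 q.2.2.2)).card := by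
    rw [card_filter]
    unfold NT NRow pt
    simp only [Fintype.sum_prod_type]
  rw [hNT]
  unfold copies
  apply card_le_card_of_injOn
    (fun q => ((![q.1, q.2.1] : Fin 2 → Fin n), (![q.2.2.1, q.2.2.2] : Fin 2 → Fin n)))
  · rintro ⟨r, r', c, c'⟩ hq
    simp only [mem_coe, mem_filter, mem_univ, true_and] at hq ⊢
    obtain ⟨h1, h2, h3, h4, h5, h6⟩ := hq
    refine ⟨?_, ?_, ?_⟩
    · rw [Fin.strictMono_iff_lt_succ]
      intro i
      fin_cases i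
      simpa using h1
    · rw [Fin.strictMono_iff_lt_succ]
      intro i
      fin_cases i
      simpa using h2
    · intro i j
      fin_cases i <;> fin_cases j <;> simp [tee, h3, h4, h5, h6]
  · rintro ⟨r, r', c, c'⟩ _ ⟨s, s', d, d'⟩ _ heq
    simp only [Prod.mk.injEq] at heq
    have e1 := congrFun heq.1 0
    have e2 := congrFun heq.1 1
    have e3 := congrFun heq.2 0
    have e4 := congrFun heq.2 1
    simp at e1 e2 e3 e4
    simp [e1, e2, e3, e4]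

lemma copies_tee_eq_zero {n : ℕ} (B : Fin n → Fin n → Bool) (h : ∀ a r c m, ¬ CpT B a r c m) :
    copies tee B = 0 := by
  unfold copies
  rw [card_eq_zero, filter_eq_empty_iff]
  rintro ⟨p1, p2⟩ _ ⟨h1, h2, h3⟩
  simp only at h1 h2 h3
  refine h (p1 0) (p1 1) (p2 0) (p2 1) ⟨h1 (by simp), h2 (by simp), ?_, ?_, ?_, ?_⟩
  · rw [h3]; rfl
  · rw [h3]; rfl
  · rw [h3]; rfl
  · rw [h3]; rfl

/-- Polynomial removal for the pattern `[[0,0],[1,0]]`. -/
theorem removal_tee {n : ℕ} (hn : 1 ≤ n) (A : Fin n → Fin n → Bool) {ε : ℝ} (h0 : 0 < ε) (h1 : ε < 1)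
    (hfar : IsFar tee A ε) :
    (ε / 24) ^ 48 * (n : ℝ) ^ 4 ≤ (copies tee A : ℝ) := by
  obtain ⟨q, hq⟩ : ∃ q : ℕ, q = ⌈22 / ε⌉₊ + 1 := ⟨_, rfl⟩
  have hn' : (0 : ℝ) < n := by exact_mod_cast hn
  have h8 : 22 / ε ≤ ⌈22 / ε⌉₊ := Nat.le_ceil _
  have hqr : (q : ℝ) = (⌈22 / ε⌉₊ : ℝ) + 1 := by rw [hq]; push_cast; ring
  have hq1 : 22 / ε + 1 ≤ (q : ℝ) := by rw [hqr]; linarith
  have h8' : (22 : ℝ) < 22 / ε := by
    rw [lt_div_iff₀ h0]
    nlinarith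
  have hq2 : 2 ≤ q := by
    have : (2 : ℝ) ≤ q := by linarith
    exact_mod_cast this
  have hq3 : (q : ℝ) ≤ 24 / ε := by
    have h2 : (⌈22 / ε⌉₊ : ℝ) < 22 / ε + 1 := Nat.ceil_lt_add_one (by positivity)
    rw [hqr]
    have h3 : (2 : ℝ) ≤ 2 / ε := by
      rw [le_div_iff₀ h0]
      nlinarith
    have h4 : 24 / ε = 22 / ε + 2 / ε := by ring
    rw [h4]
    linarith
  have hqpos : (0 : ℝ) < q := by linarith
  have hmain : n ^ 4 < NT A * q ^ 48 := by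
    by_contra hcon
    push Not at hcon
    obtain ⟨B, hB, hd⟩ := coreT A hq2 hcon
    have h2 := hfar B (copies_tee_eq_zero B hB)
    have h3 : (hamming A B : ℝ) * q ≤ 22 * (n : ℝ) ^ 2 := by exact_mod_cast hd
    have h4 : ε * (n : ℝ) ^ 2 * q ≤ 22 * (n : ℝ) ^ 2 :=
      le_trans (mul_le_mul_of_nonneg_right h2 hqpos.le) h3
    have h5 : ε * q ≤ 22 := by
      have hn2 : (0 : ℝ) < (n : ℝ) ^ 2 := by positivity
      nlinarith
    have h6 : 22 / ε * ε = 22 := by field_simp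
    nlinarith
  have hmain' : (n : ℝ) ^ 4 ≤ (NT A : ℝ) * (q : ℝ) ^ 48 := by
    exact_mod_cast hmain.le
  have hε : ε / 24 ≤ 1 / q := by
    rw [le_div_iff₀ hqpos]
    have h6 : 24 / ε * ε = 24 := by field_simp
    nlinarith
  have hε0 : 0 ≤ ε / 24 := by positivity
  have hp : (ε / 24) ^ 48 * (q : ℝ) ^ 48 ≤ 1 := by
    have : (ε / 24) ^ 48 ≤ (1 / (q : ℝ)) ^ 48 := pow_le_pow_left₀ hε0 hε 48
    calc (ε / 24) ^ 48 * (q : ℝ) ^ 48 ≤ (1 / (q : ℝ)) ^ 48 * (q : ℝ) ^ 48 :=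
          mul_le_mul_of_nonneg_right this (by positivity)
      _ = 1 := by
          rw [← mul_pow, one_div, inv_mul_cancel₀ hqpos.ne', one_pow]
  have hN0 : (0 : ℝ) ≤ NT A := by positivity
  have hN1 : (ε / 24) ^ 48 * (n : ℝ) ^ 4 ≤ (NT A : ℝ) := by
    calc (ε / 24) ^ 48 * (n : ℝ) ^ 4 ≤ (ε / 24) ^ 48 * ((NT A : ℝ) * (q : ℝ) ^ 48) :=
          mul_le_mul_of_nonneg_left hmain' (by positivity)
      _ = ((ε / 24) ^ 48 * (q : ℝ) ^ 48) * (NT A : ℝ) := by ring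
      _ ≤ 1 * (NT A : ℝ) := mul_le_mul_of_nonneg_right hp hN0
      _ = (NT A : ℝ) := one_mul _
  have h3 : (NT A : ℝ) ≤ copies tee A := by exact_mod_cast NT_le_copies A
  linarith

end Vale.Agent.Lib.P037
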