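import Mathlib
import Vale.Agent.Lib.P037.Bridge
import Vale.Agent.Lib.P037.RowC
import Vale.Agent.Lib.P037.TeeBridge

namespace Vale.Agent.Lib.P037

open Finset

/-- The polynomial removal bound for the pattern `H`. -/
def Rem (H : Fin 2 → Fin 2 → Bool) : Prop :=
  ∀ (n : ℕ), 1 ≤ n → ∀ (A : Fin n → Fin n → Bool) (ε : ℝ), 0 < ε → ε < 1 → IsFar H A ε →
    (ε / 100) ^ 48 * (n : ℝ) ^ 4 ≤ (copies H A : ℝ)

/-- Transfer along an involution of the space of matrices. -/
lemma Rem_of_sym {H H' : Fin 2 → Fin 2 → Bool}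
    (Φ : ∀ {n : ℕ}, (Fin n → Fin n → Bool) → (Fin n → Fin n → Bool))
    (hinv : ∀ {n : ℕ} (A : Fin n → Fin n → Bool), Φ (Φ A) = A)
    (hham : ∀ {n : ℕ} (A B : Fin n → Fin n → Bool), hamming (Φ A) (Φ B) = hamming A B)
    (hc1 : ∀ {n : ℕ} (A : Fin n → Fin n → Bool), copies H (Φ A) ≤ copies H' A)
    (hc2 : ∀ {n : ℕ} (A : Fin n → Fin n → Bool), copies H' (Φ A) ≤ copies H A)
    (hH : Rem H) : Rem H' := by
  intro n hn A ε h0 h1 hfar
  have hfar' : IsFar H (Φ A) ε := by
    intro B hB
    have h2 : copies H' (Φ B) = 0 := by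
      have := hc2 B
      omega
    have h3 := hfar _ h2
    have h4 : hamming (Φ A) B = hamming A (Φ B) := by
      rw [← hham A (Φ B), hinv]
    rwa [h4]
  have h2 := hH n hn (Φ A) ε h0 h1 hfar'
  have h3 : (copies H (Φ A) : ℝ) ≤ copies H' A := by exact_mod_cast hc1 A
  linarith

/-! ### Reversing the rows -/

lemma Rem_revRows {H H' : Fin 2 → Fin 2 → Bool} (h : ∀ i j, H' i j = H (Fin.rev i) j)
    (hH : Rem H) : Rem H' :=
  Rem_of_sym revRows revRows_revRows hamming_revRows
    (fun A => copies_revRows_le h A)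
    (fun A => copies_revRows_le (fun i j => by rw [h, Fin.rev_rev]) A) hH

/-! ### Reversing the columns -/

/-- Reversing the columns. -/
def revCols {n : ℕ} (A : Fin n → Fin n → Bool) : Fin n → Fin n → Bool :=
  fun r c => A r (Fin.rev c)

lemma revCols_revCols {n : ℕ} (A : Fin n → Fin n → Bool) : revCols (revCols A) = A := by
  funext r c
  simp [revCols]

lemma hamming_revCols {n : ℕ} (A B : Fin n → Fin n → Bool) :
    hamming (revCols A) (revCols B) = hamming A B := by
  unfold hamming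
  apply card_bij (fun p _ => (p.1, Fin.rev p.2))
  · rintro ⟨a, b⟩ hp
    exact mem_filter.2 ⟨mem_univ _, (mem_filter.1 hp).2⟩
  · rintro ⟨a, b⟩ _ ⟨c, d⟩ _ h
    simpa using h
  · rintro ⟨a, b⟩ hp
    refine ⟨(a, Fin.rev b), ?_, by simp⟩
    refine mem_filter.2 ⟨mem_univ _, ?_⟩
    simp only [revCols, Fin.rev_rev]
    exact (mem_filter.1 hp).2

lemma copies_revCols_le {k n : ℕ} {H1 H2 : Fin k → Fin k → Bool}
    (hH : ∀ i j, H2 i j = H1 i (Fin.rev j)) (A : Fin n → Fin n → Bool) :
    copies H1 (revCols A) ≤ copies H2 A := by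
  unfold copies
  apply card_le_card_of_injOn
    (fun p => (p.1, (fun i => Fin.rev (p.2 (Fin.rev i)) : Fin k → Fin n)))
  · rintro ⟨p1, p2⟩ hp
    simp only [mem_coe, mem_filter, mem_univ, true_and] at hp ⊢
    obtain ⟨h1, h2, h3⟩ := hp
    refine ⟨h1, ?_, ?_⟩
    · intro i j hij
      apply Fin.rev_lt_rev.2
      apply h2
      exact Fin.rev_lt_rev.2 hij
    · intro i j
      have := h3 i (Fin.rev j)
      simp only [revCols] at this
      rw [this, hH]
  · rintro ⟨p1, p2⟩ _ ⟨q1, q2⟩ _ h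
    simp only [Prod.mk.injEq] at h
    obtain ⟨h1, h2⟩ := h
    subst h1
    congr 1
    funext i
    have := congrFun h2 (Fin.rev i)
    simpa using this

lemma Rem_revCols {H H' : Fin 2 → Fin 2 → Bool} (h : ∀ i j, H' i j = H i (Fin.rev j))
    (hH : Rem H) : Rem H' :=
  Rem_of_sym revCols revCols_revCols hamming_revCols
    (fun A => copies_revCols_le h A)
    (fun A => copies_revCols_le (fun i j => by rw [h, Fin.rev_rev]) A) hH

/-! ### Complement -/

/-- Exchanging zeros and ones. -/
def compl {n : ℕ} (A : Fin n → Fin n → Bool) : Fin n → Fin n → Bool :=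
  fun r c => ! A r c

lemma compl_compl {n : ℕ} (A : Fin n → Fin n → Bool) : compl (compl A) = A := by
  funext r c
  simp [compl]

lemma hamming_compl {n : ℕ} (A B : Fin n → Fin n → Bool) :
    hamming (compl A) (compl B) = hamming A B := by
  unfold hamming
  congr 1
  ext ⟨a, b⟩
  simp [compl]

lemma copies_compl_le {k n : ℕ} {H1 H2 : Fin k → Fin k → Bool}
    (hH : ∀ i j, H2 i j = ! H1 i j) (A : Fin n → Fin n → Bool) :
    copies H1 (compl A) ≤ copies H2 A := by
  unfold copies
  apply card_le_card_of_injOn (fun p => p)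
  · rintro ⟨p1, p2⟩ hp
    simp only [mem_coe, mem_filter, mem_univ, true_and] at hp ⊢
    obtain ⟨h1, h2, h3⟩ := hp
    refine ⟨h1, h2, ?_⟩
    intro i j
    have := h3 i j
    simp only [compl] at this
    rw [hH, ← this, Bool.not_not]
  · intro x _ y _ h
    exact h

lemma Rem_compl {H H' : Fin 2 → Fin 2 → Bool} (h : ∀ i j, H' i j = ! H i j)
    (hH : Rem H) : Rem H' :=
  Rem_of_sym compl compl_compl hamming_compl
    (fun A => copies_compl_le h A)
    (fun A => copies_compl_le (fun i j => by rw [h, Bool.not_not]) A) hH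

/-! ### Transpose -/

/-- The transpose. -/
def tr {n : ℕ} (A : Fin n → Fin n → Bool) : Fin n → Fin n → Bool :=
  fun r c => A c r

lemma tr_tr {n : ℕ} (A : Fin n → Fin n → Bool) : tr (tr A) = A := rfl

lemma hamming_tr {n : ℕ} (A B : Fin n → Fin n → Bool) :
    hamming (tr A) (tr B) = hamming A B := by
  unfold hamming
  apply card_bij (fun p _ => (p.2, p.1))
  · rintro ⟨a, b⟩ hp
    exact mem_filter.2 ⟨mem_univ _, (mem_filter.1 hp).2⟩
  · rintro ⟨a, b⟩ _ ⟨c, d⟩ _ h
    simp only [Prod.mk.injEq] at h ⊢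
    exact ⟨h.2, h.1⟩
  · rintro ⟨a, b⟩ hp
    exact ⟨(b, a), mem_filter.2 ⟨mem_univ _, (mem_filter.1 hp).2⟩, rfl⟩

lemma copies_tr_le {k n : ℕ} {H1 H2 : Fin k → Fin k → Bool}
    (hH : ∀ i j, H2 i j = H1 j i) (A : Fin n → Fin n → Bool) :
    copies H1 (tr A) ≤ copies H2 A := by
  unfold copies
  apply card_le_card_of_injOn (fun p => (p.2, p.1))
  · rintro ⟨p1, p2⟩ hp
    simp only [mem_coe, mem_filter, mem_univ, true_and] at hp ⊢
    obtain ⟨h1, h2, h3⟩ := hp
    refine ⟨h2, h1, ?_⟩
    intro i j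
    have := h3 j i
    simp only [tr] at this
    rw [this, hH]
  · rintro ⟨p1, p2⟩ _ ⟨q1, q2⟩ _ h
    simp only [Prod.mk.injEq] at h ⊢
    exact ⟨h.2, h.1⟩

lemma Rem_tr {H H' : Fin 2 → Fin 2 → Bool} (h : ∀ i j, H' i j = H j i)
    (hH : Rem H) : Rem H' :=
  Rem_of_sym tr tr_tr hamming_tr
    (fun A => copies_tr_le h A)
    (fun A => copies_tr_le (fun i j => by rw [h]) A) hH

/-! ### The base patterns -/

lemma pow_le_of_le_const {ε : ℝ} {a b : ℝ} (h0 : 0 < ε) (h1 : ε / b ≤ ε / a) (hb : 0 < b)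
    {n N : ℝ} (hn : 0 ≤ n) (h : (ε / a) ^ 48 * n ≤ N) : (ε / b) ^ 48 * n ≤ N := by
  have h2 : (ε / b) ^ 48 ≤ (ε / a) ^ 48 := pow_le_pow_left₀ (by positivity) h1 48
  exact (mul_le_mul_of_nonneg_right h2 hn).trans h

lemma Rem_diag : Rem diag2 := by
  intro n hn A ε h0 h1 hfar
  apply pow_le_of_le_const h0 (a := 10) (b := 100) _ (by norm_num) (by positivity)
    (removal_diag hn A h0 h1 hfar)
  exact div_le_div_of_nonneg_left h0.le (by norm_num) (by norm_num)

lemma Rem_tee : Rem tee := by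
  intro n hn A ε h0 h1 hfar
  apply pow_le_of_le_const h0 (a := 24) (b := 100) _ (by norm_num) (by positivity)
    (removal_tee hn A h0 h1 hfar)
  exact div_le_div_of_nonneg_left h0.le (by norm_num) (by norm_num)

lemma Rem_R : Rem (rc true false) := fun _ hn A _ h0 h1 hfar => removal_R A hn h0 h1 hfar

lemma Rem_O : Rem (rc false false) := fun _ hn A _ h0 h1 hfar => removal_O A hn h0 h1 hfar

/-- A `2 × 2` pattern given by its entries. -/
def mat (a b c d : Bool) : Fin 2 → Fin 2 → Bool := ![![a, b], ![c, d]]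

lemma mat_revRows {a b c d : Bool} (h : Rem (mat a b c d)) : Rem (mat c d a b) :=
  Rem_revRows (fun i j => by fin_cases i <;> fin_cases j <;> rfl) h

lemma mat_revCols {a b c d : Bool} (h : Rem (mat a b c d)) : Rem (mat b a d c) :=
  Rem_revCols (fun i j => by fin_cases i <;> fin_cases j <;> rfl) h

lemma mat_compl {a b c d : Bool} (h : Rem (mat a b c d)) : Rem (mat (!a) (!b) (!c) (!d)) :=
  Rem_compl (fun i j => by fin_cases i <;> fin_cases j <;> rfl) h

lemma mat_tr {a b c d : Bool} (h : Rem (mat a b c d)) : Rem (mat a c b d) :=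
  Rem_tr (fun i j => by fin_cases i <;> fin_cases j <;> rfl) h

lemma mat_diag : Rem (mat true false false true) := Rem_diag

lemma mat_tee : Rem (mat false false true false) := Rem_tee

lemma mat_R : Rem (mat true true false false) := Rem_R

lemma mat_O : Rem (mat false false false false) := Rem_O

/-- Every `2 × 2` pattern has the polynomial removal bound. -/
theorem Rem_all (H : Fin 2 → Fin 2 → Bool) : Rem H := by
  have e : H = mat (H 0 0) (H 0 1) (H 1 0) (H 1 1) := by
    funext i j
    fin_cases i <;> fin_cases j <;> rfl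
  rw [e]
  generalize H 0 0 = a
  generalize H 0 1 = b
  generalize H 1 0 = c
  generalize H 1 1 = d
  have t1 : Rem (mat true false false false) := mat_revRows mat_tee
  have t2 : Rem (mat false true false false) := mat_revCols t1
  have t3 : Rem (mat false false false true) := mat_revCols mat_tee
  have r1 : Rem (mat true false true false) := mat_tr mat_R
  cases a <;> cases b <;> cases c <;> cases d
  · exact mat_O
  · exact t3
  · exact mat_tee
  · exact mat_revRows mat_R
  · exact t2
  · exact mat_revCols r1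
  · exact mat_revRows mat_diag
  · exact mat_compl t1
  · exact t1
  · exact mat_diag
  · exact r1
  · exact mat_compl t2
  · exact mat_R
  · exact mat_compl mat_tee
  · exact mat_compl t3
  · exact mat_compl mat_O

end Vale.Agent.Lib.P037
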